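import Vale.Agent.P150.Slow.Defs

/-!
P150 / Slow module MIXGAP: mixing at time `t` implies `gap ≥ log 2 / t` (any `H`).

For an eigenfunction `f` of `-ℒ` with eigenvalue `λ` and mean zero,
`e^{-λt} |f x| = |P_t f (x)| = |∑_y (P_t(x,y) - μ(y)) f y| ≤ 2 tv ‖f‖_∞ ≤ ½‖f‖_∞`, so `λ t ≥ log 2`.
The operator `D^{1/2} (-ℒ) D^{-1/2}`, `D = diag μ`, is symmetric; expanding in an orthonormal basis
of eigenvectors gives the Poincaré inequality with constant `log 2 / t`.
-/

namespace Vale.Agent.P150.Slow

open scoped BigOperators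

variable {n : ℕ}

namespace Mixgap

lemma avg_gen_mul_aux (H : Cfg n → ℝ) (f g : Cfg n → ℝ) :
    avg H (fun x => gen H f x * g x) =
      ∑ i : Fin n, (avg H (fun x => condExp H i f x * g x) - avg H (fun x => f x * g x)) := by
  have h : (fun x => gen H f x * g x) =
      fun x => ∑ i : Fin n, (condExp H i f x * g x - f x * g x) := by
    funext x
    simp only [gen, Finset.sum_mul, sub_mul]
  rw [h, avg_sum]
  exact Finset.sum_congr rfl fun i _ => avg_sub _ _ _

/-- reversibility of the generator -/
lemma avg_gen_mul (H : Cfg n → ℝ) (f g : Cfg n → ℝ) :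
    avg H (fun x => gen H f x * g x) = avg H (fun x => f x * gen H g x) := by
  have h2 : avg H (fun x => f x * gen H g x) = avg H (fun x => gen H g x * f x) := by
    congr 1; funext x; ring
  rw [h2, avg_gen_mul_aux, avg_gen_mul_aux]
  refine Finset.sum_congr rfl fun i _ => ?_
  rw [avg_condExp_mul]
  have h3 : (fun x => f x * condExp H i g x) = fun x => condExp H i g x * f x := by
    funext x; ring
  have h4 : (fun x => f x * g x) = fun x => g x * f x := by
    funext x; ring
  rw [h3, h4]

lemma condExp_sub_const (H : Cfg n → ℝ) (i : Fin n) (f : Cfg n → ℝ) (c : ℝ) (x : Cfg n) :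
    condExp H i (fun y => f y - c) x = condExp H i f x - c := by
  have hD : (0 : ℝ) < ∑ s : ℤˣ, gibbs H (Function.update x i s) :=
    Finset.sum_pos (fun s _ => gibbs_pos H _) Finset.univ_nonempty
  simp only [condExp, mul_sub, Finset.sum_sub_distrib, ← Finset.sum_mul]
  rw [sub_div, mul_div_cancel_left₀ _ hD.ne']

lemma gen_sub_const (H : Cfg n → ℝ) (f : Cfg n → ℝ) (c : ℝ) (x : Cfg n) :
    gen H (fun y => f y - c) x = gen H f x := by
  simp only [gen, condExp_sub_const]
  exact Finset.sum_congr rfl fun i _ => by ring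

lemma gen_const (H : Cfg n → ℝ) (c : ℝ) (x : Cfg n) : gen H (fun _ => c) x = 0 := by
  have h := gen_sub_const H (fun _ => c) c x
  rw [← h]
  simp only [sub_self, gen, condExp, mul_zero, Finset.sum_const_zero, zero_div]

/-- the generator has mean zero -/
lemma avg_gen (H : Cfg n → ℝ) (f : Cfg n → ℝ) : avg H (gen H f) = 0 := by
  have h := avg_gen_mul H f (fun _ => 1)
  simp only [mul_one, gen_const, mul_zero] at h
  rw [h]
  exact avg_const H 0

/-- the semigroup on an eigenfunction -/
lemma semi_eigen (H : Cfg n → ℝ) (f : Cfg n → ℝ) (lam : ℝ) (hf : gen H f = (-lam) • f) (t : ℝ) :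
    semi H t f = Real.exp (-(lam * t)) • f := by
  set A : (Cfg n → ℝ) →L[ℝ] (Cfg n → ℝ) := LinearMap.toContinuousLinearMap (genL H) with hA
  have hAf : A f = (-lam) • f := hf
  have hd : ∀ s : ℝ, HasDerivAt (fun s : ℝ => Real.exp (lam * s) • (NormedSpace.exp (s • A)) f) 0 s := by
    intro s
    have h1 : HasDerivAt (fun s : ℝ => NormedSpace.exp (s • A)) (NormedSpace.exp (s • A) * A) s :=
      hasDerivAt_exp_smul_const A s
    have h2 : HasDerivAt (fun s : ℝ => (NormedSpace.exp (s • A)) f)
        ((NormedSpace.exp (s • A) * A) f + (NormedSpace.exp (s • A)) 0) s :=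
      h1.clm_apply (hasDerivAt_const s f)
    have h3 : HasDerivAt (fun s : ℝ => Real.exp (lam * s)) (Real.exp (lam * s) * lam) s := by
      have h4 : HasDerivAt (fun s : ℝ => lam * s) lam s := by
        simpa using (hasDerivAt_id s).const_mul lam
      exact h4.exp
    have h5 := h3.smul h2
    have e : Real.exp (lam * s) • ((NormedSpace.exp (s • A) * A) f + (NormedSpace.exp (s • A)) 0)
        + (Real.exp (lam * s) * lam) • (NormedSpace.exp (s • A)) f = 0 := by
      rw [map_zero, add_zero]
      have : (NormedSpace.exp (s • A) * A) f = (NormedSpace.exp (s • A)) (A f) := rfl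
      rw [this, hAf, map_smul, smul_smul, ← add_smul]
      have h0 : Real.exp (lam * s) * -lam + Real.exp (lam * s) * lam = 0 := by ring
      rw [h0, zero_smul]
    rw [e] at h5
    exact h5
  have hc := is_const_of_deriv_eq_zero (fun s => (hd s).differentiableAt)
    (fun s => (hd s).deriv) t 0
  have h0 : (NormedSpace.exp ((0 : ℝ) • A)) f = f := by
    rw [zero_smul, NormedSpace.exp_zero]; rfl
  simp only [mul_zero, Real.exp_zero, one_smul, h0] at hc
  have h6 : semi H t f = (NormedSpace.exp (t • A)) f := rfl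
  rw [h6]
  calc (NormedSpace.exp (t • A)) f
      = (Real.exp (-(lam * t)) * Real.exp (lam * t)) • (NormedSpace.exp (t • A)) f := by
        rw [← Real.exp_add, neg_add_cancel, Real.exp_zero, one_smul]
    _ = Real.exp (-(lam * t)) • f := by rw [mul_smul, hc]

lemma semi_apply (H : Cfg n → ℝ) (t : ℝ) (f : Cfg n → ℝ) (x : Cfg n) :
    semi H t f x = ∑ y, kernel H t x y * f y := by
  classical
  have h : f = ∑ y, f y • (Pi.single y (1 : ℝ) : Cfg n → ℝ) := by
    funext z
    simp [Finset.sum_apply, Pi.single_apply]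
  conv_lhs => rw [h]
  rw [map_sum, Finset.sum_apply]
  refine Finset.sum_congr rfl fun y _ => ?_
  rw [map_smul, Pi.smul_apply, smul_eq_mul, kernel, mul_comm]

lemma semi_le (H : Cfg n → ℝ) (t : ℝ) (hmix : ∀ x, tvDist H t x ≤ 1 / 4) (f : Cfg n → ℝ)
    (hf : avg H f = 0) (x : Cfg n) : |semi H t f x| ≤ 1 / 2 * ‖f‖ := by
  have h1 : semi H t f x = ∑ y, (kernel H t x y - gibbs H y) * f y := by
    simp only [sub_mul, Finset.sum_sub_distrib]
    rw [semi_apply]
    have : ∑ y, gibbs H y * f y = 0 := hf
    rw [this, sub_zero]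
  have h2 : ∑ y, |kernel H t x y - gibbs H y| ≤ 1 / 2 := by
    have := hmix x
    unfold tvDist at this
    linarith
  calc |semi H t f x| ≤ ∑ y, |(kernel H t x y - gibbs H y) * f y| := by
        rw [h1]; exact Finset.abs_sum_le_sum_abs _ _
    _ ≤ ∑ y, |kernel H t x y - gibbs H y| * ‖f‖ := by
        refine Finset.sum_le_sum fun y _ => ?_
        rw [abs_mul]
        exact mul_le_mul_of_nonneg_left (norm_le_pi_norm f y) (abs_nonneg _)
    _ = (∑ y, |kernel H t x y - gibbs H y|) * ‖f‖ := by rw [Finset.sum_mul]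
    _ ≤ 1 / 2 * ‖f‖ := mul_le_mul_of_nonneg_right h2 (norm_nonneg _)

/-- eigenvalues of mean-zero eigenfunctions -/
lemma eigen_ge (H : Cfg n → ℝ) (t : ℝ) (ht : 0 < t) (hmix : ∀ x, tvDist H t x ≤ 1 / 4)
    (f : Cfg n → ℝ) (lam : ℝ) (hf : gen H f = (-lam) • f) (h0 : avg H f = 0) (hne : f ≠ 0) :
    Real.log 2 / t ≤ lam := by
  have h1 : ∀ x, |Real.exp (-(lam * t)) * f x| ≤ 1 / 2 * ‖f‖ := by
    intro x
    have h2 := semi_le H t hmix f h0 x
    rw [semi_eigen H f lam hf t] at h2
    exact h2
  have hnorm : 0 < ‖f‖ := norm_pos_iff.mpr hne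
  have h3 : ‖Real.exp (-(lam * t)) • f‖ ≤ 1 / 2 * ‖f‖ :=
    (pi_norm_le_iff_of_nonneg (by positivity)).mpr fun x => h1 x
  rw [norm_smul, Real.norm_eq_abs, abs_of_pos (Real.exp_pos _)] at h3
  have h4 : Real.exp (-(lam * t)) ≤ 1 / 2 := le_of_mul_le_mul_right h3 hnorm
  have h5 := Real.log_le_log (Real.exp_pos _) h4
  rw [Real.log_exp, one_div, Real.log_inv] at h5
  rw [div_le_iff₀ ht]
  linarith

/-- embedding in the Euclidean space -/
noncomputable def emb (H : Cfg n → ℝ) (g : Cfg n → ℝ) : EuclideanSpace ℝ (Cfg n) :=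
  WithLp.toLp 2 (fun x => Real.sqrt (gibbs H x) * g x)

/-- inverse of the embedding -/
noncomputable def unemb (H : Cfg n → ℝ) (u : EuclideanSpace ℝ (Cfg n)) : Cfg n → ℝ :=
  fun x => u x / Real.sqrt (gibbs H x)

lemma sq_pos (H : Cfg n → ℝ) (x : Cfg n) : 0 < Real.sqrt (gibbs H x) :=
  Real.sqrt_pos.mpr (gibbs_pos H x)

lemma unemb_emb (H : Cfg n → ℝ) (g : Cfg n → ℝ) : unemb H (emb H g) = g := by
  funext x
  have : (emb H g) x = Real.sqrt (gibbs H x) * g x := rfl
  rw [unemb, this, mul_div_cancel_left₀ _ (sq_pos H x).ne']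

lemma emb_unemb (H : Cfg n → ℝ) (u : EuclideanSpace ℝ (Cfg n)) : emb H (unemb H u) = u := by
  ext x
  have : (emb H (unemb H u)) x = Real.sqrt (gibbs H x) * (u x / Real.sqrt (gibbs H x)) := rfl
  rw [this, mul_div_cancel₀ _ (sq_pos H x).ne']

lemma inner_emb (H : Cfg n → ℝ) (f g : Cfg n → ℝ) :
    inner ℝ (emb H f) (emb H g) = avg H (fun x => f x * g x) := by
  rw [PiLp.inner_apply, avg]
  refine Finset.sum_congr rfl fun x _ => ?_
  have h1 : (emb H f) x = Real.sqrt (gibbs H x) * f x := rfl
  have h2 : (emb H g) x = Real.sqrt (gibbs H x) * g x := rfl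
  rw [h1, h2, real_inner_eq_re_inner, RCLike.inner_apply]
  simp only [conj_trivial, RCLike.re_to_real]
  have h3 : Real.sqrt (gibbs H x) * Real.sqrt (gibbs H x) = gibbs H x :=
    Real.mul_self_sqrt (gibbs_nonneg H x)
  calc Real.sqrt (gibbs H x) * g x * (Real.sqrt (gibbs H x) * f x)
      = (Real.sqrt (gibbs H x) * Real.sqrt (gibbs H x)) * (f x * g x) := by ring
    _ = _ := by rw [h3]

/-- the symmetrised operator -/
noncomputable def symT (H : Cfg n → ℝ) : EuclideanSpace ℝ (Cfg n) →ₗ[ℝ] EuclideanSpace ℝ (Cfg n) where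
  toFun u := emb H (fun x => - gen H (unemb H u) x)
  map_add' u v := by
    have h1 : unemb H (u + v) = unemb H u + unemb H v := by
      funext x
      change (u x + v x) / _ = u x / _ + v x / _
      rw [add_div]
    have h2 : gen H (unemb H u + unemb H v) = gen H (unemb H u) + gen H (unemb H v) :=
      (genL H).map_add _ _
    ext x
    change Real.sqrt (gibbs H x) * (- gen H (unemb H (u + v)) x)
      = Real.sqrt (gibbs H x) * (- gen H (unemb H u) x)
        + Real.sqrt (gibbs H x) * (- gen H (unemb H v) x)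
    rw [h1, h2, Pi.add_apply]
    ring
  map_smul' c u := by
    have h1 : unemb H (c • u) = c • unemb H u := by
      funext x
      change (c * u x) / _ = c * (u x / _)
      rw [mul_div_assoc]
    have h2 : gen H (c • unemb H u) = c • gen H (unemb H u) := (genL H).map_smul _ _
    ext x
    change Real.sqrt (gibbs H x) * (- gen H (unemb H (c • u)) x)
      = c * (Real.sqrt (gibbs H x) * (- gen H (unemb H u) x))
    rw [h1, h2, Pi.smul_apply, smul_eq_mul]
    ring

lemma symT_emb (H : Cfg n → ℝ) (g : Cfg n → ℝ) :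
    symT H (emb H g) = emb H (fun x => - gen H g x) := by
  change emb H (fun x => - gen H (unemb H (emb H g)) x) = _
  rw [unemb_emb]

lemma symT_symm (H : Cfg n → ℝ) : (symT H).IsSymmetric := by
  intro u v
  obtain ⟨f, rfl⟩ : ∃ f, emb H f = u := ⟨unemb H u, emb_unemb H u⟩
  obtain ⟨g, rfl⟩ : ∃ g, emb H g = v := ⟨unemb H v, emb_unemb H v⟩
  rw [symT_emb, symT_emb, inner_emb, inner_emb]
  have h := avg_gen_mul H f g
  have h1 : avg H (fun x => - gen H f x * g x) = - avg H (fun x => gen H f x * g x) := by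
    rw [← avg_neg]; congr 1; funext x; ring
  have h2 : avg H (fun x => f x * - gen H g x) = - avg H (fun x => f x * gen H g x) := by
    rw [← avg_neg]; congr 1; funext x; ring
  rw [h1, h2, h]

/-- Poincaré inequality for mean-zero functions -/
lemma poincare (H : Cfg n → ℝ) (t : ℝ) (ht : 0 < t) (hmix : ∀ x, tvDist H t x ≤ 1 / 4)
    (g : Cfg n → ℝ) (hg : avg H g = 0) :
    Real.log 2 / t * avg H (fun x => g x * g x) ≤ avg H (fun x => g x * - gen H g x) := by
  set hT := symT_symm H
  set bs := hT.eigenvectorBasis (n := Module.finrank ℝ (EuclideanSpace ℝ (Cfg n))) rfl with hbs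
  have e1 : avg H (fun x => g x * g x) =
      ∑ i, inner ℝ (emb H g) (bs i) * inner ℝ (bs i) (emb H g) := by
    rw [bs.sum_inner_mul_inner, inner_emb]
  have e2 : avg H (fun x => g x * - gen H g x) =
      ∑ i, inner ℝ (emb H g) (bs i) * inner ℝ (bs i) (symT H (emb H g)) := by
    rw [bs.sum_inner_mul_inner, symT_emb, inner_emb]
  rw [e1, e2, Finset.mul_sum]
  refine Finset.sum_le_sum fun i _ => ?_
  set lam : ℝ := hT.eigenvalues rfl i with hlam
  have hb : symT H (bs i) = lam • bs i := by
    have := hT.apply_eigenvectorBasis (n := Module.finrank ℝ (EuclideanSpace ℝ (Cfg n))) rfl i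
    exact this
  have h1 : inner ℝ (bs i) (symT H (emb H g)) = lam * inner ℝ (bs i) (emb H g) := by
    rw [← hT (bs i) (emb H g), hb, real_inner_smul_left]
  have h2 : inner ℝ (emb H g) (bs i) = inner ℝ (bs i) (emb H g) := real_inner_comm _ _
  rw [h1, h2]
  -- the eigenfunction
  obtain ⟨f, hfe⟩ : ∃ f, emb H f = bs i := ⟨unemb H (bs i), emb_unemb H _⟩
  have hfg : gen H f = (-lam) • f := by
    have h3 : emb H (fun x => - gen H f x) = lam • emb H f := by
      rw [← symT_emb, hfe, hb]
    funext x
    have h4 : Real.sqrt (gibbs H x) * (- gen H f x) = lam * (Real.sqrt (gibbs H x) * f x) :=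
      congrArg (fun u : EuclideanSpace ℝ (Cfg n) => u x) h3
    have h5 := sq_pos H x
    have h6 : Real.sqrt (gibbs H x) * (gen H f x) = Real.sqrt (gibbs H x) * (-lam * f x) := by
      linarith
    exact mul_left_cancel₀ h5.ne' h6
  rcases eq_or_ne (inner ℝ (bs i) (emb H g)) 0 with hz | hz
  · rw [hz]; simp
  have hge : Real.log 2 / t ≤ lam := by
    by_cases hl0 : lam = 0
    · exfalso
      -- then `f - avg f` is a mean-zero eigenfunction with eigenvalue zero
      have hf0 : gen H f = 0 := by rw [hfg, hl0]; simp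
      set f' : Cfg n → ℝ := fun x => f x - avg H f with hf'
      have h7 : gen H f' = (-(0 : ℝ)) • f' := by
        funext x
        rw [hf', gen_sub_const, hf0]
        simp
      have h8 : avg H f' = 0 := by
        rw [hf', avg_sub, avg_const, sub_self]
      have h9 : f' = 0 := by
        by_contra hne
        have h10 := eigen_ge H t ht hmix f' 0 h7 h8 hne
        have h11 : 0 < Real.log 2 / t := div_pos (Real.log_pos (by norm_num)) ht
        linarith
      have h12 : ∀ x, f x = avg H f := by
        intro x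
        have := congrFun h9 x
        simp only [hf', Pi.zero_apply] at this
        linarith
      apply hz
      rw [← hfe, inner_emb]
      have h13 : (fun x => f x * g x) = fun x => avg H f * g x := by
        funext x; rw [h12 x]
      rw [h13, avg_const_mul, hg, mul_zero]
    · have hm : avg H f = 0 := by
        have h7 := avg_gen H f
        rw [hfg] at h7
        have h8 : avg H ((-lam) • f) = -lam * avg H f := by
          rw [← avg_const_mul]; rfl
        rw [h8] at h7
        rcases mul_eq_zero.mp h7 with h9 | h9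
        · exact absurd (neg_eq_zero.mp h9) hl0
        · exact h9
      refine eigen_ge H t ht hmix f lam hfg hm ?_
      rintro rfl
      apply hz
      rw [← hfe, inner_emb]
      simp [avg]
  nlinarith [mul_self_nonneg (inner ℝ (bs i) (emb H g))]

end Mixgap

open Mixgap in
theorem gap_ge_of_mixed (H : Cfg n → ℝ) (hn : n ≠ 0) (t : ℝ) (ht : 0 < t)
    (hmix : ∀ x, tvDist H t x ≤ 1 / 4) : Real.log 2 / t ≤ specGap H := by
  unfold specGap
  refine le_csInf ?_ ?_
  · -- a function of non-zero variance
    let i0 : Fin n := ⟨0, Nat.pos_of_ne_zero hn⟩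
    refine ⟨_, fun x => val (x i0), ?_, rfl⟩
    intro hv
    have h1 : ∀ x ∈ (Finset.univ : Finset (Cfg n)),
        gibbs H x * (val (x i0) - avg H (fun x => val (x i0))) ^ 2 = 0 := by
      refine (Finset.sum_eq_zero_iff_of_nonneg ?_).mp hv
      intro x _
      exact mul_nonneg (gibbs_nonneg H x) (sq_nonneg _)
    have h2 : ∀ x : Cfg n, val (x i0) = avg H (fun x => val (x i0)) := by
      intro x
      have h3 := h1 x (Finset.mem_univ x)
      rcases mul_eq_zero.mp h3 with h4 | h4
      · exact absurd h4 (gibbs_pos H x).ne'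
      · have := pow_eq_zero_iff (n := 2) (by norm_num) |>.mp h4
        linarith
    have h5 := h2 (fun _ => 1)
    have h6 := h2 (fun _ => -1)
    rw [← h6] at h5
    simp only [val_one, val_neg_one] at h5
    norm_num at h5
  · rintro r ⟨f, hf, rfl⟩
    set m := avg H f with hm
    set g : Cfg n → ℝ := fun x => f x - m with hg
    have hg0 : avg H g = 0 := by rw [hg, avg_sub, avg_const, ← hm, sub_self]
    have hvar : var H f = avg H (fun x => g x * g x) := by
      unfold var
      congr 1
      funext x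
      rw [hg, ← hm]
      ring
    have hdir : dir H f = avg H (fun x => g x * - gen H g x) := by
      have h1 : ∀ x, gen H g x = gen H f x := fun x => gen_sub_const H f m x
      have h2 : (fun x => g x * - gen H g x) =
          fun x => f x * (- gen H f x) - (-m) * gen H f x := by
        funext x
        rw [h1, hg]
        ring
      rw [h2, avg_sub, avg_const_mul, avg_gen, mul_zero, sub_zero]
      rfl
    have hpos : 0 < var H f := by
      refine lt_of_le_of_ne ?_ (Ne.symm hf)
      rw [hvar]
      exact avg_nonneg H fun x => mul_self_nonneg _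
    rw [le_div_iff₀ hpos, hdir, hvar]
    exact poincare H t ht hmix g hg0

end Vale.Agent.P150.Slow
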