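import Vale.Agent.P150.Slow.Defs

/-!
P150 / Slow module CAVITY: adding one spin.

`b' = β √(n/(n+1))`, so `β/√(n+1) = b'/√n`.  Splitting off the last spin,
`Z_{n+1}(β) = Z_n(b') · 2 ⟨cosh (a ∑ z_i x_i)⟩_{n,b'}`, `a = β/√(n+1)`, `z_i = g_{i,n+1}` independent of the rest.
(`disorder (n+1)` is the product of `disorder n` and `stdG (Fin n)` under the obvious equivalence of index sets.)
`Y = ⟨cosh(a z·x)⟩ ≥ 1`, `E_z Y = e^{a²n/2}`, `E_z Y² = e^{a²n} ⟨cosh(a² n R)⟩ ≤ e^{a²n}(1 + C ⟨R²⟩)`,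
`C = β⁴ cosh(β²)` (`cosh u - 1 ≤ u²/2 · cosh u`, `|a² n R| ≤ β²`).  Instead of Chebyshev's inequality we use the
pointwise bound `log Y ≥ κ (1 - (Y - m)²/(δ² m²))`, `m = E_z Y`, `κ = log m + log (1-δ) ≥ 0`.
-/

namespace Vale.Agent.P150.Slow

open MeasureTheory ProbabilityTheory
open scoped BigOperators

namespace Cavity

variable {n : ℕ}

/-! ### splitting the index set of pairs -/

/-- The pairs of `Fin (n+1)`: pairs of `Fin n`, and pairs `(i, n)`. -/
def pairFun (n : ℕ) : Pair n ⊕ Fin n → Pair (n + 1)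
  | Sum.inl p => ⟨(p.1.1.castSucc, p.1.2.castSucc), Fin.castSucc_lt_castSucc_iff.2 p.2⟩
  | Sum.inr i => ⟨(i.castSucc, Fin.last n), Fin.castSucc_lt_last i⟩

lemma pairFun_bij (n : ℕ) : Function.Bijective (pairFun n) := by
  constructor
  · rintro (⟨⟨a, b⟩, h⟩ | i) (⟨⟨a', b'⟩, h'⟩ | i') he
    · simp only [pairFun, Subtype.mk.injEq, Prod.mk.injEq, Fin.castSucc_inj] at he
      obtain ⟨rfl, rfl⟩ := he
      rfl
    · simp only [pairFun, Subtype.mk.injEq, Prod.mk.injEq] at he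
      exact absurd he.2 (Fin.castSucc_lt_last b).ne
    · simp only [pairFun, Subtype.mk.injEq, Prod.mk.injEq] at he
      exact absurd he.2.symm (Fin.castSucc_lt_last b').ne
    · simp only [pairFun, Subtype.mk.injEq, Prod.mk.injEq, Fin.castSucc_inj, and_true] at he
      rw [he]
  · rintro ⟨⟨a, b⟩, h⟩
    change a < b at h
    have ha : a ≠ Fin.last n := fun e => by
      rw [e] at h
      exact absurd h (not_lt.2 (Fin.le_last b))
    obtain ⟨a', rfl⟩ := Fin.exists_castSucc_eq.2 ha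
    by_cases hb : b = Fin.last n
    · subst hb
      exact ⟨Sum.inr a', rfl⟩
    · obtain ⟨b', rfl⟩ := Fin.exists_castSucc_eq.2 hb
      exact ⟨Sum.inl ⟨(a', b'), Fin.castSucc_lt_castSucc_iff.1 h⟩, rfl⟩

noncomputable def pairEquiv (n : ℕ) : Pair n ⊕ Fin n ≃ Pair (n + 1) :=
  Equiv.ofBijective _ (pairFun_bij n)

lemma sum_pair (F : Pair (n + 1) → ℝ) :
    ∑ p, F p = ∑ p : Pair n, F (pairFun n (Sum.inl p)) + ∑ i, F (pairFun n (Sum.inr i)) := by
  rw [← (pairEquiv n).sum_comp F, Fintype.sum_sum_type]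
  rfl

/-- Gluing the disorder of `n` spins and the couplings of the new spin. -/
noncomputable def glue (n : ℕ) (q : (Pair n → ℝ) × (Fin n → ℝ)) (p : Pair (n + 1)) : ℝ :=
  Sum.elim q.1 q.2 ((pairEquiv n).symm p)

lemma glue_inl (q : (Pair n → ℝ) × (Fin n → ℝ)) (p : Pair n) :
    glue n q (pairFun n (Sum.inl p)) = q.1 p := by
  have : (pairEquiv n).symm (pairFun n (Sum.inl p)) = Sum.inl p :=
    (pairEquiv n).symm_apply_apply (Sum.inl p)
  simp only [glue, this, Sum.elim_inl]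

lemma glue_inr (q : (Pair n → ℝ) × (Fin n → ℝ)) (i : Fin n) :
    glue n q (pairFun n (Sum.inr i)) = q.2 i := by
  have : (pairEquiv n).symm (pairFun n (Sum.inr i)) = Sum.inr i :=
    (pairEquiv n).symm_apply_apply (Sum.inr i)
  simp only [glue, this, Sum.elim_inr]

lemma glue_mp (n : ℕ) :
    MeasurePreserving (glue n) ((disorder n).prod (stdG (Fin n))) (disorder (n + 1)) := by
  have h1 := measurePreserving_sumPiEquivProdPi_symm (X := fun _ : Pair n ⊕ Fin n => ℝ)
    (fun _ => gaussianReal 0 1)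
  have h2 := measurePreserving_piCongrLeft (α := fun _ : Pair (n + 1) => ℝ)
    (fun _ => gaussianReal 0 1) (pairEquiv n)
  have h3 := h2.comp h1
  have he : glue n = (MeasurableEquiv.piCongrLeft (fun _ : Pair (n + 1) => ℝ) (pairEquiv n)) ∘
      (MeasurableEquiv.sumPiEquivProdPi (fun _ : Pair n ⊕ Fin n => ℝ)).symm := by
    funext q p
    obtain ⟨r, rfl⟩ := (pairEquiv n).surjective p
    simp only [glue, Function.comp_apply, Equiv.symm_apply_apply]
    rw [MeasurableEquiv.coe_piCongrLeft, Equiv.piCongrLeft_apply_apply]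
    rcases r with p | i <;> rfl
  rw [he]
  exact h3

/-! ### splitting the configuration -/

lemma sum_cfg (F : Cfg (n + 1) → ℝ) :
    ∑ x, F x = ∑ x : Cfg n, ∑ s : ℤˣ, F (Fin.snoc x s) := by
  rw [← (Fin.snocEquiv (fun _ : Fin (n + 1) => ℤˣ)).sum_comp F, Fintype.sum_prod_type,
    Finset.sum_comm]
  rfl

lemma skH_snoc (β : ℝ) (q : (Pair n → ℝ) × (Fin n → ℝ)) (x : Cfg n) (s : ℤˣ) :
    skH (n + 1) β (glue n q) (Fin.snoc x s) =
      β / Real.sqrt (n + 1) * (∑ p : Pair n, q.1 p * val (x p.1.1) * val (x p.1.2))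
        + β / Real.sqrt (n + 1) * (val s * lin q.2 x) := by
  unfold skH
  rw [sum_pair, mul_add]
  push_cast
  congr 2
  · refine Finset.sum_congr rfl fun p _ => ?_
    rw [glue_inl]
    simp only [pairFun, Fin.snoc_castSucc]
  · unfold lin
    rw [Finset.mul_sum]
    refine Finset.sum_congr rfl fun i _ => ?_
    rw [glue_inr]
    simp only [pairFun, Fin.snoc_castSucc, Fin.snoc_last]
    ring


lemma sinh_le_mul_cosh {v : ℝ} (hv : 0 ≤ v) : Real.sinh v ≤ v * Real.cosh v := by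
  have hmono : MonotoneOn (fun v : ℝ => v * Real.cosh v - Real.sinh v) (Set.Ici 0) := by
    have hd : ∀ x : ℝ, HasDerivAt (fun v : ℝ => v * Real.cosh v - Real.sinh v)
        (x * Real.sinh x) x := by
      intro x
      have h := ((hasDerivAt_id x).mul (Real.hasDerivAt_cosh x)).sub (Real.hasDerivAt_sinh x)
      refine h.congr_deriv ?_
      simp only [id]
      ring
    refine monotoneOn_of_deriv_nonneg (convex_Ici 0) ?_ ?_ ?_
    · exact fun x _ => (hd x).continuousAt.continuousWithinAt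
    · exact fun x _ => (hd x).differentiableAt.differentiableWithinAt
    · intro x hx
      rw [interior_Ici] at hx
      rw [(hd x).deriv]
      exact mul_nonneg (le_of_lt hx) (Real.sinh_nonneg_iff.2 (le_of_lt hx))
  have := hmono (Set.mem_Ici.2 le_rfl) (Set.mem_Ici.2 hv) hv
  simp only [zero_mul, Real.sinh_zero, sub_zero] at this
  linarith

lemma cosh_sub_one_le (u : ℝ) : Real.cosh u ≤ 1 + u ^ 2 / 2 * Real.cosh u := by
  have h1 : Real.cosh u = 1 + 2 * Real.sinh (u / 2) ^ 2 := by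
    have := Real.cosh_two_mul (u / 2)
    rw [show 2 * (u / 2) = u by ring, Real.cosh_sq] at this
    linarith
  have h2 : Real.sinh (u / 2) ^ 2 ≤ (u / 2) ^ 2 * Real.cosh (u / 2) ^ 2 := by
    have h := sinh_le_mul_cosh (abs_nonneg (u / 2))
    rw [← Real.abs_sinh, Real.cosh_abs] at h
    have h3 : |Real.sinh (u / 2)| ^ 2 ≤ (|u / 2| * Real.cosh (u / 2)) ^ 2 :=
      pow_le_pow_left₀ (abs_nonneg _) h 2
    rw [sq_abs, mul_pow, sq_abs] at h3
    exact h3
  have h4 : Real.cosh (u / 2) ^ 2 ≤ Real.cosh u := by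
    have h := Real.cosh_two_mul (u / 2)
    rw [show 2 * (u / 2) = u by ring] at h
    rw [h]
    linarith [sq_nonneg (Real.sinh (u / 2))]
  have h5 : (u / 2) ^ 2 * Real.cosh (u / 2) ^ 2 ≤ (u / 2) ^ 2 * Real.cosh u :=
    mul_le_mul_of_nonneg_left h4 (sq_nonneg _)
  nlinarith

/-- `Y(z) = ⟨cosh (a z·x)⟩`. -/
noncomputable def Yf (H : Cfg n → ℝ) (a : ℝ) (z : Fin n → ℝ) : ℝ :=
  avg H (fun x => Real.cosh (a * lin z x))

lemma one_le_Yf (H : Cfg n → ℝ) (a : ℝ) (z : Fin n → ℝ) : 1 ≤ Yf H a z := by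
  unfold Yf
  rw [← avg_const H 1]
  exact avg_mono H fun x => Real.one_le_cosh _

lemma continuous_Yf (H : Cfg n → ℝ) (a : ℝ) : Continuous (Yf H a) := by
  unfold Yf avg lin
  fun_prop

lemma EG_cosh (c : Fin n → ℝ) : EG (fun z : Fin n → ℝ => Real.cosh (∑ i, c i * z i)) := by
  refine ((EG.exp_lin c).add (EG.exp_lin (fun i => - c i))).mono fun z => ?_
  rw [Real.cosh_eq, ← Finset.sum_neg_distrib]
  simp only [neg_mul]
  have h1 := Real.exp_pos (∑ i, c i * z i)
  have h2 := Real.exp_pos (∑ i, -(c i * z i))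
  rw [abs_of_pos (by positivity), abs_of_pos (by positivity)]
  linarith

lemma lin_eq (a : ℝ) (z : Fin n → ℝ) (x : Cfg n) :
    a * lin z x = ∑ i, (a * val (x i)) * z i := by
  unfold lin
  rw [Finset.mul_sum]
  exact Finset.sum_congr rfl fun i _ => by ring

lemma EG_Yf (H : Cfg n → ℝ) (a : ℝ) : EG (Yf H a) := by
  unfold Yf avg
  refine EG.sum _ fun x _ => ?_
  refine (EG.const _).mul ?_
  simp only [lin_eq]
  exact EG_cosh _

lemma integral_cosh (c : Fin n → ℝ) :
    ∫ z, Real.cosh (∑ i, c i * z i) ∂(stdG (Fin n)) = Real.exp (1 / 2 * ∑ i, c i ^ 2) := by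
  have h1 := integral_exp_lin_stdG c
  have h2 := integral_exp_lin_stdG (fun i => - c i)
  have e : (fun z : Fin n → ℝ => Real.cosh (∑ i, c i * z i)) = fun z =>
      (1 / 2 : ℝ) * (Real.exp (∑ i, c i * z i) + Real.exp (∑ i, (- c i) * z i)) := by
    funext z
    rw [Real.cosh_eq, ← Finset.sum_neg_distrib]
    simp only [neg_mul]
    ring
  rw [e, integral_const_mul, integral_add (integrable_exp_lin_stdG c)
    (integrable_exp_lin_stdG (fun i => - c i)), h1, h2]
  simp only [even_two, Even.neg_pow]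
  ring

lemma integral_cosh_mul (c d : Fin n → ℝ) :
    ∫ z, Real.cosh (∑ i, c i * z i) * Real.cosh (∑ i, d i * z i) ∂(stdG (Fin n))
      = Real.exp (1 / 2 * (∑ i, c i ^ 2 + ∑ i, d i ^ 2)) * Real.cosh (∑ i, c i * d i) := by
  have h1 := integral_cosh (fun i => c i + d i)
  have h2 := integral_cosh (fun i => c i - d i)
  have e : (fun z : Fin n → ℝ => Real.cosh (∑ i, c i * z i) * Real.cosh (∑ i, d i * z i))
      = fun z => (1 / 2 : ℝ) * (Real.cosh (∑ i, (c i + d i) * z i)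
        + Real.cosh (∑ i, (c i - d i) * z i)) := by
    funext z
    have e1 : ∑ i, (c i + d i) * z i = ∑ i, c i * z i + ∑ i, d i * z i := by
      rw [← Finset.sum_add_distrib]
      exact Finset.sum_congr rfl fun i _ => by ring
    have e2 : ∑ i, (c i - d i) * z i = ∑ i, c i * z i - ∑ i, d i * z i := by
      rw [← Finset.sum_sub_distrib]
      exact Finset.sum_congr rfl fun i _ => by ring
    rw [e1, e2, Real.cosh_add, Real.cosh_sub]
    ring
  have i1 : Integrable (fun z : Fin n → ℝ => Real.cosh (∑ i, (c i + d i) * z i))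
      (stdG (Fin n)) := (EG_cosh (fun i => c i + d i)).integrable (by fun_prop)
  have i2 : Integrable (fun z : Fin n → ℝ => Real.cosh (∑ i, (c i - d i) * z i))
      (stdG (Fin n)) := (EG_cosh (fun i => c i - d i)).integrable (by fun_prop)
  rw [e, integral_const_mul, integral_add i1 i2, h1, h2]
  have e3 : 1 / 2 * ∑ i, (c i + d i) ^ 2
      = 1 / 2 * (∑ i, c i ^ 2 + ∑ i, d i ^ 2) + ∑ i, c i * d i := by
    rw [← Finset.sum_add_distrib, Finset.mul_sum, Finset.mul_sum, ← Finset.sum_add_distrib]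
    exact Finset.sum_congr rfl fun i _ => by ring
  have e4 : 1 / 2 * ∑ i, (c i - d i) ^ 2
      = 1 / 2 * (∑ i, c i ^ 2 + ∑ i, d i ^ 2) + - ∑ i, c i * d i := by
    rw [← Finset.sum_add_distrib, Finset.mul_sum, Finset.mul_sum, ← Finset.sum_neg_distrib,
      ← Finset.sum_add_distrib]
    exact Finset.sum_congr rfl fun i _ => by ring
  rw [e3, e4, Real.exp_add, Real.exp_add, Real.cosh_eq]
  ring

lemma sum_sq_val (a : ℝ) (x : Cfg n) : ∑ i, (a * val (x i)) ^ 2 = a ^ 2 * n := by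
  simp only [mul_pow, val_sq, mul_one, Finset.sum_const, Finset.card_univ, Fintype.card_fin,
    nsmul_eq_mul]
  ring

/-- `E Y = e^{a² n / 2}`. -/
lemma integral_Yf (H : Cfg n → ℝ) (a : ℝ) :
    ∫ z, Yf H a z ∂(stdG (Fin n)) = Real.exp (1 / 2 * (a ^ 2 * n)) := by
  unfold Yf avg
  rw [integral_finsetSum]
  · have : ∀ x : Cfg n, ∫ z, gibbs H x * Real.cosh (a * lin z x) ∂(stdG (Fin n))
        = gibbs H x * Real.exp (1 / 2 * (a ^ 2 * n)) := by
      intro x
      rw [integral_const_mul]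
      simp only [lin_eq]
      rw [integral_cosh, sum_sq_val]
    rw [Finset.sum_congr rfl fun x _ => this x, ← Finset.sum_mul, sum_gibbs, one_mul]
  · intro x _
    refine Integrable.const_mul ?_ _
    simp only [lin_eq]
    exact (EG_cosh _).integrable (by fun_prop)

/-- the unnormalised overlap -/
noncomputable def ov (x y : Cfg n) : ℝ := ∑ i, val (x i) * val (y i)

lemma abs_ov_le (x y : Cfg n) : |ov x y| ≤ n := by
  unfold ov
  refine (Finset.abs_sum_le_sum_abs _ _).trans ?_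
  simp only [abs_mul, abs_val, mul_one, Finset.sum_const, Finset.card_univ, Fintype.card_fin,
    nsmul_eq_mul]
  exact le_rfl

/-- `E Y² = e^{a² n} ⟨⟨cosh (a² n R)⟩⟩`. -/
lemma integral_Yf_sq (H : Cfg n → ℝ) (a : ℝ) :
    ∫ z, Yf H a z ^ 2 ∂(stdG (Fin n)) =
      Real.exp (a ^ 2 * n) * ∑ x, ∑ y, gibbs H x * gibbs H y * Real.cosh (a ^ 2 * ov x y) := by
  have e : (fun z : Fin n → ℝ => Yf H a z ^ 2) = fun z => ∑ x, ∑ y, gibbs H x * gibbs H y *
      (Real.cosh (∑ i, (a * val (x i)) * z i) * Real.cosh (∑ i, (a * val (y i)) * z i)) := by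
    funext z
    unfold Yf avg
    simp only [lin_eq]
    rw [sq, Finset.sum_mul_sum]
    exact Finset.sum_congr rfl fun x _ => Finset.sum_congr rfl fun y _ => by ring
  have hi : ∀ x y : Cfg n, Integrable (fun z : Fin n → ℝ => gibbs H x * gibbs H y *
      (Real.cosh (∑ i, (a * val (x i)) * z i) * Real.cosh (∑ i, (a * val (y i)) * z i)))
      (stdG (Fin n)) := by
    intro x y
    refine Integrable.const_mul ?_ _
    exact ((EG_cosh _).mul (EG_cosh _)).integrable (by fun_prop)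
  rw [e, integral_finsetSum _ fun x _ => integrable_finsetSum _ fun y _ => hi x y,
    Finset.mul_sum]
  refine Finset.sum_congr rfl fun x _ => ?_
  rw [integral_finsetSum _ fun y _ => hi x y, Finset.mul_sum]
  refine Finset.sum_congr rfl fun y _ => ?_
  rw [integral_const_mul, integral_cosh_mul, sum_sq_val, sum_sq_val]
  have e1 : 1 / 2 * (a ^ 2 * (n : ℝ) + a ^ 2 * n) = a ^ 2 * n := by ring
  have e2 : ∑ i, a * val (x i) * (a * val (y i)) = a ^ 2 * ov x y := by
    unfold ov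
    rw [Finset.mul_sum]
    exact Finset.sum_congr rfl fun i _ => by ring
  rw [e1, e2]
  ring

lemma sum_ov_sq (H : Cfg n → ℝ) (hn : n ≠ 0) :
    ∑ x, ∑ y, gibbs H x * gibbs H y * ov x y ^ 2 = (n : ℝ) ^ 2 * ovl H := by
  have hn' : (n : ℝ) ≠ 0 := Nat.cast_ne_zero.2 hn
  unfold ovl
  rw [← mul_assoc, mul_one_div_cancel (pow_ne_zero 2 hn'), one_mul]
  unfold ov avg
  have h1 : ∀ x y : Cfg n, gibbs H x * gibbs H y * (∑ i, val (x i) * val (y i)) ^ 2 =
      ∑ i, ∑ j, (gibbs H x * (val (x i) * val (x j))) * (gibbs H y * (val (y i) * val (y j))) := by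
    intro x y
    rw [sq, Finset.sum_mul_sum, Finset.mul_sum]
    refine Finset.sum_congr rfl fun i _ => ?_
    rw [Finset.mul_sum]
    exact Finset.sum_congr rfl fun j _ => by ring
  simp only [h1]
  have h2 : ∀ x : Cfg n, ∑ y : Cfg n, ∑ i, ∑ j,
      (gibbs H x * (val (x i) * val (x j))) * (gibbs H y * (val (y i) * val (y j)))
      = ∑ i, ∑ j, (gibbs H x * (val (x i) * val (x j))) *
        ∑ y : Cfg n, (gibbs H y * (val (y i) * val (y j))) := by
    intro x
    rw [Finset.sum_comm]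
    refine Finset.sum_congr rfl fun i _ => ?_
    rw [Finset.sum_comm]
    refine Finset.sum_congr rfl fun j _ => ?_
    rw [Finset.mul_sum]
  simp only [h2]
  rw [Finset.sum_comm]
  refine Finset.sum_congr rfl fun i _ => ?_
  rw [Finset.sum_comm]
  refine Finset.sum_congr rfl fun j _ => ?_
  rw [← Finset.sum_mul, sq]


/-! ### bounds of the overlap -/

lemma ovl_nonneg' (H : Cfg n → ℝ) : 0 ≤ ovl H := by
  unfold ovl
  exact mul_nonneg (by positivity)
    (Finset.sum_nonneg fun i _ => Finset.sum_nonneg fun j _ => sq_nonneg _)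

lemma ovl_le_one' (H : Cfg n → ℝ) (hn : n ≠ 0) : ovl H ≤ 1 := by
  have hn' : (0 : ℝ) < n := Nat.cast_pos.2 (Nat.pos_of_ne_zero hn)
  have h1 : (n : ℝ) ^ 2 * ovl H ≤ (n : ℝ) ^ 2 * 1 := by
    rw [← sum_ov_sq H hn]
    have h2 : ∀ x y : Cfg n, gibbs H x * gibbs H y * ov x y ^ 2 ≤
        gibbs H x * gibbs H y * (n : ℝ) ^ 2 := by
      intro x y
      refine mul_le_mul_of_nonneg_left ?_ (mul_nonneg (gibbs_nonneg H x) (gibbs_nonneg H y))
      rw [← sq_abs]
      exact pow_le_pow_left₀ (abs_nonneg _) (abs_ov_le x y) 2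
    calc ∑ x, ∑ y, gibbs H x * gibbs H y * ov x y ^ 2
        ≤ ∑ x, ∑ y, gibbs H x * gibbs H y * (n : ℝ) ^ 2 :=
          Finset.sum_le_sum fun x _ => Finset.sum_le_sum fun y _ => h2 x y
      _ = (n : ℝ) ^ 2 * 1 := by
          simp only [← Finset.sum_mul, ← Finset.mul_sum, sum_gibbs]
          ring
  exact le_of_mul_le_mul_left h1 (by positivity)

/-- `E Y² ≤ e^{a² n} (1 + C ⟨R²⟩)`. -/
lemma integral_Yf_sq_le (H : Cfg n → ℝ) (hn : n ≠ 0) (β : ℝ) :
    ∫ z, Yf H (β / Real.sqrt (n + 1)) z ^ 2 ∂(stdG (Fin n)) ≤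
      Real.exp ((β / Real.sqrt (n + 1)) ^ 2 * n) *
        (1 + β ^ 4 * Real.cosh (β ^ 2) * ovl H) := by
  have hn' : (0 : ℝ) < n := Nat.cast_pos.2 (Nat.pos_of_ne_zero hn)
  have ha : (β / Real.sqrt (n + 1)) ^ 2 = β ^ 2 / (n + 1) := by
    rw [div_pow, Real.sq_sqrt (by positivity)]
  rw [integral_Yf_sq]
  refine mul_le_mul_of_nonneg_left ?_ (Real.exp_pos _).le
  rw [ha]
  have hpt : ∀ x y : Cfg n, Real.cosh (β ^ 2 / (n + 1) * ov x y) ≤
      1 + β ^ 4 * Real.cosh (β ^ 2) / (n : ℝ) ^ 2 * ov x y ^ 2 := by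
    intro x y
    have h1 := cosh_sub_one_le (β ^ 2 / (n + 1) * ov x y)
    have h2 : Real.cosh (β ^ 2 / (n + 1) * ov x y) ≤ Real.cosh (β ^ 2) := by
      rw [Real.cosh_le_cosh, abs_mul, abs_of_nonneg (by positivity : 0 ≤ β ^ 2 / ((n : ℝ) + 1)),
        abs_of_nonneg (sq_nonneg β)]
      calc β ^ 2 / ((n : ℝ) + 1) * |ov x y| ≤ β ^ 2 / ((n : ℝ) + 1) * n :=
            mul_le_mul_of_nonneg_left (abs_ov_le x y) (by positivity)
        _ ≤ β ^ 2 := by
            rw [div_mul_eq_mul_div, div_le_iff₀ (by positivity)]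
            exact mul_le_mul_of_nonneg_left (by linarith) (sq_nonneg β)
    have h3 : (β ^ 2 / (n + 1) * ov x y) ^ 2 / 2 ≤ β ^ 4 / (n : ℝ) ^ 2 * ov x y ^ 2 := by
      have h4 : β ^ 2 / ((n : ℝ) + 1) ≤ β ^ 2 / n :=
        div_le_div_of_nonneg_left (sq_nonneg β) hn' (by linarith)
      have h5 : (β ^ 2 / ((n : ℝ) + 1)) ^ 2 ≤ (β ^ 2 / n) ^ 2 :=
        pow_le_pow_left₀ (by positivity) h4 2
      have h6 : (β ^ 2 / (n : ℝ)) ^ 2 = β ^ 4 / (n : ℝ) ^ 2 := by
        rw [div_pow]; ring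
      rw [h6] at h5
      have h7 : (β ^ 2 / ((n : ℝ) + 1)) ^ 2 * ov x y ^ 2 ≤ β ^ 4 / (n : ℝ) ^ 2 * ov x y ^ 2 :=
        mul_le_mul_of_nonneg_right h5 (sq_nonneg _)
      have h8 : 0 ≤ (β ^ 2 / ((n : ℝ) + 1)) ^ 2 * ov x y ^ 2 := by positivity
      rw [mul_pow]
      linarith
    calc Real.cosh (β ^ 2 / (n + 1) * ov x y)
        ≤ 1 + (β ^ 2 / (n + 1) * ov x y) ^ 2 / 2 * Real.cosh (β ^ 2 / (n + 1) * ov x y) := h1
      _ ≤ 1 + (β ^ 4 / (n : ℝ) ^ 2 * ov x y ^ 2) * Real.cosh (β ^ 2) := by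
          have := mul_le_mul h3 h2 (Real.cosh_pos _).le (by positivity)
          linarith
      _ = 1 + β ^ 4 * Real.cosh (β ^ 2) / (n : ℝ) ^ 2 * ov x y ^ 2 := by ring
  calc ∑ x, ∑ y, gibbs H x * gibbs H y * Real.cosh (β ^ 2 / (n + 1) * ov x y)
      ≤ ∑ x, ∑ y, gibbs H x * gibbs H y *
          (1 + β ^ 4 * Real.cosh (β ^ 2) / (n : ℝ) ^ 2 * ov x y ^ 2) :=
        Finset.sum_le_sum fun x _ => Finset.sum_le_sum fun y _ =>
          mul_le_mul_of_nonneg_left (hpt x y) (mul_nonneg (gibbs_nonneg H x) (gibbs_nonneg H y))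
    _ = 1 + β ^ 4 * Real.cosh (β ^ 2) / (n : ℝ) ^ 2 *
          ∑ x, ∑ y, gibbs H x * gibbs H y * ov x y ^ 2 := by
        simp only [mul_add, mul_one, Finset.sum_add_distrib]
        congr 1
        · simp only [← Finset.mul_sum, sum_gibbs, mul_one]
        · rw [Finset.mul_sum]
          refine Finset.sum_congr rfl fun x _ => ?_
          rw [Finset.mul_sum]
          exact Finset.sum_congr rfl fun y _ => by ring
    _ = 1 + β ^ 4 * Real.cosh (β ^ 2) * ovl H := by
        rw [sum_ov_sq H hn]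
        field_simp

lemma EG_log_Yf (H : Cfg n → ℝ) (a : ℝ) : EG (fun z => Real.log (Yf H a z)) := by
  refine (EG_Yf H a).mono fun z => ?_
  have h1 := one_le_Yf H a z
  rw [abs_of_nonneg (Real.log_nonneg h1), abs_of_nonneg (by linarith)]
  linarith [Real.log_le_sub_one_of_pos (show 0 < Yf H a z by linarith)]

lemma continuous_log_Yf (H : Cfg n → ℝ) (a : ℝ) : Continuous (fun z => Real.log (Yf H a z)) :=
  (continuous_Yf H a).log fun z => by linarith [one_le_Yf H a z]

/-- The lower bound for a fixed Gibbs measure. -/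
lemma log_Yf_lower (H : Cfg n → ℝ) (hn : n ≠ 0) (β δ : ℝ) (hδ0 : 0 < δ) (hδ1 : δ < 1)
    (hpos : 0 ≤ β ^ 2 * n / (2 * (n + 1)) + Real.log (1 - δ)) :
    (1 - β ^ 4 * Real.cosh (β ^ 2) / δ ^ 2 * ovl H) *
        (β ^ 2 * n / (2 * (n + 1)) + Real.log (1 - δ)) ≤
      ∫ z, Real.log (Yf H (β / Real.sqrt (n + 1)) z) ∂(stdG (Fin n)) := by
  set a := β / Real.sqrt (n + 1) with ha_def
  set κ := β ^ 2 * n / (2 * (n + 1)) + Real.log (1 - δ) with hκ
  have ha : a ^ 2 = β ^ 2 / (n + 1) := by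
    rw [ha_def, div_pow, Real.sq_sqrt (by positivity)]
  set m := Real.exp (1 / 2 * (a ^ 2 * n)) with hm
  have hm0 : 0 < m := Real.exp_pos _
  have hκm : κ = Real.log ((1 - δ) * m) := by
    rw [Real.log_mul (by linarith) hm0.ne', hm, Real.log_exp, ha, hκ]
    have : (n : ℝ) + 1 ≠ 0 := by positivity
    field_simp
    ring
  have hpt : ∀ z, κ * (1 - (Yf H a z - m) ^ 2 / (δ ^ 2 * m ^ 2)) ≤ Real.log (Yf H a z) := by
    intro z
    have hY := one_le_Yf H a z
    by_cases h : (1 - δ) * m ≤ Yf H a z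
    · have h1 : κ ≤ Real.log (Yf H a z) := by
        rw [hκm]
        exact Real.log_le_log (mul_pos (by linarith) hm0) h
      have h2 : 0 ≤ (Yf H a z - m) ^ 2 / (δ ^ 2 * m ^ 2) := by positivity
      nlinarith
    · have h1 : δ * m ≤ m - Yf H a z := by
        have := not_le.1 h
        linarith
      have h2 : δ ^ 2 * m ^ 2 ≤ (Yf H a z - m) ^ 2 := by
        have := pow_le_pow_left₀ (by positivity) h1 2
        nlinarith
      have h3 : 1 ≤ (Yf H a z - m) ^ 2 / (δ ^ 2 * m ^ 2) := by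
        rw [le_div_iff₀ (by positivity)]
        linarith
      have h4 : κ * (1 - (Yf H a z - m) ^ 2 / (δ ^ 2 * m ^ 2)) ≤ 0 :=
        mul_nonpos_of_nonneg_of_nonpos hpos (by linarith)
      linarith [Real.log_nonneg hY]
  have iY : Integrable (Yf H a) (stdG (Fin n)) := (EG_Yf H a).integrable (continuous_Yf H a)
  have iY2 : Integrable (fun z => Yf H a z ^ 2) (stdG (Fin n)) := by
    have h := ((EG_Yf H a).mul (EG_Yf H a)).integrable
      ((continuous_Yf H a).mul (continuous_Yf H a))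
    exact h.congr (Filter.Eventually.of_forall fun z => (sq (Yf H a z)).symm)
  have ilog : Integrable (fun z => Real.log (Yf H a z)) (stdG (Fin n)) :=
    (EG_log_Yf H a).integrable (continuous_log_Yf H a)
  have hexp : ∀ z, κ * (1 - (Yf H a z - m) ^ 2 / (δ ^ 2 * m ^ 2)) =
      (κ - κ * m ^ 2 / (δ ^ 2 * m ^ 2)) + (2 * κ * m / (δ ^ 2 * m ^ 2)) * Yf H a z
        - (κ / (δ ^ 2 * m ^ 2)) * Yf H a z ^ 2 := by
    intro z
    ring
  have ilow : Integrable (fun z => κ * (1 - (Yf H a z - m) ^ 2 / (δ ^ 2 * m ^ 2)))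
      (stdG (Fin n)) := by
    simp only [hexp]
    exact ((integrable_const _).add (iY.const_mul _)).sub (iY2.const_mul _)
  have hint := integral_mono ilow ilog hpt
  refine le_trans ?_ hint
  have hval : ∫ z, κ * (1 - (Yf H a z - m) ^ 2 / (δ ^ 2 * m ^ 2)) ∂(stdG (Fin n))
      = (κ - κ * m ^ 2 / (δ ^ 2 * m ^ 2)) + (2 * κ * m / (δ ^ 2 * m ^ 2)) * m
        - (κ / (δ ^ 2 * m ^ 2)) * ∫ z, Yf H a z ^ 2 ∂(stdG (Fin n)) := by
    simp only [hexp]
    have i1 : Integrable (fun z => (κ - κ * m ^ 2 / (δ ^ 2 * m ^ 2))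
        + (2 * κ * m / (δ ^ 2 * m ^ 2)) * Yf H a z) (stdG (Fin n)) :=
      (integrable_const _).add (iY.const_mul _)
    have i2 : Integrable (fun z => (κ / (δ ^ 2 * m ^ 2)) * Yf H a z ^ 2) (stdG (Fin n)) :=
      iY2.const_mul _
    have i3 : Integrable (fun z => (2 * κ * m / (δ ^ 2 * m ^ 2)) * Yf H a z) (stdG (Fin n)) :=
      iY.const_mul _
    rw [integral_sub i1 i2, integral_add (integrable_const _) i3, integral_const_mul,
      integral_const_mul, integral_Yf]
    simp [hm]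
  rw [hval]
  have hY2 := integral_Yf_sq_le H hn β
  rw [← ha_def] at hY2
  have hm2 : Real.exp (a ^ 2 * n) = m ^ 2 := by
    rw [hm, ← Real.exp_nat_mul]
    congr 1
    push_cast
    ring
  rw [hm2] at hY2
  have hcoef : 0 ≤ κ / (δ ^ 2 * m ^ 2) := div_nonneg hpos (by positivity)
  have h1 := mul_le_mul_of_nonneg_left hY2 hcoef
  have e1 : κ / (δ ^ 2 * m ^ 2) * (m ^ 2 * (1 + β ^ 4 * Real.cosh (β ^ 2) * ovl H)) =
      κ / δ ^ 2 + κ / δ ^ 2 * (β ^ 4 * Real.cosh (β ^ 2) * ovl H) := by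
    field_simp
  have e2 : κ * m ^ 2 / (δ ^ 2 * m ^ 2) = κ / δ ^ 2 := by field_simp
  have e3 : 2 * κ * m / (δ ^ 2 * m ^ 2) * m = 2 * (κ / δ ^ 2) := by field_simp
  rw [e1] at h1
  rw [e2, e3]
  have e4 : (1 - β ^ 4 * Real.cosh (β ^ 2) / δ ^ 2 * ovl H) * κ
      = κ - κ / δ ^ 2 * (β ^ 4 * Real.cosh (β ^ 2) * ovl H) := by ring
  rw [e4]
  linarith

/-! ### the partition function -/

lemma coupling (n : ℕ) (hn : n ≠ 0) (β : ℝ) :
    β * Real.sqrt (n / (n + 1)) / Real.sqrt n = β / Real.sqrt (n + 1) := by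
  have hn' : (0 : ℝ) < n := Nat.cast_pos.2 (Nat.pos_of_ne_zero hn)
  rw [Real.sqrt_div hn'.le]
  have h1 : Real.sqrt n ≠ 0 := (Real.sqrt_pos.2 hn').ne'
  field_simp

lemma Z_glue (hn : n ≠ 0) (β : ℝ) (q : (Pair n → ℝ) × (Fin n → ℝ)) :
    ∑ x : Cfg (n + 1), Real.exp (skH (n + 1) β (glue n q) x) =
      2 * (∑ x : Cfg n, Real.exp (skH n (β * Real.sqrt (n / (n + 1))) q.1 x)) *
        Yf (skH n (β * Real.sqrt (n / (n + 1))) q.1) (β / Real.sqrt (n + 1)) q.2 := by
  set H := skH n (β * Real.sqrt (n / (n + 1))) q.1 with hH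
  have hZ := (Z_pos H).ne'
  have e1 : 2 * (∑ x : Cfg n, Real.exp (H x)) * Yf H (β / Real.sqrt (n + 1)) q.2 =
      ∑ x : Cfg n, Real.exp (H x) * (2 * Real.cosh (β / Real.sqrt (n + 1) * lin q.2 x)) := by
    unfold Yf avg gibbs
    rw [Finset.mul_sum]
    refine Finset.sum_congr rfl fun x _ => ?_
    field_simp
  rw [e1, sum_cfg]
  refine Finset.sum_congr rfl fun x _ => ?_
  rw [sum_spin, skH_snoc, skH_snoc, val_one, val_neg_one]
  have e2 : β / Real.sqrt (n + 1) * (∑ p : Pair n, q.1 p * val (x p.1.1) * val (x p.1.2)) = H x := by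
    rw [hH]
    unfold skH
    rw [coupling n hn β]
  rw [e2, Real.exp_add, Real.exp_add, Real.cosh_eq]
  ring_nf

lemma skH_eq (n : ℕ) (β : ℝ) (g : Pair n → ℝ) (x : Cfg n) :
    skH n β g x = ∑ p : Pair n, (β / Real.sqrt n * val (x p.1.1) * val (x p.1.2)) * g p := by
  unfold skH
  rw [Finset.mul_sum]
  exact Finset.sum_congr rfl fun p _ => by ring

lemma continuous_skH (n : ℕ) (β : ℝ) (x : Cfg n) : Continuous (fun g => skH n β g x) := by
  unfold skH
  fun_prop

lemma continuous_logZ (n : ℕ) (β : ℝ) :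
    Continuous (fun g => Real.log (∑ x : Cfg n, Real.exp (skH n β g x))) := by
  refine Continuous.log ?_ fun g => (Z_pos (skH n β g)).ne'
  exact continuous_finsetSum _ fun x _ => (continuous_skH n β x).rexp

lemma integrable_logZ (n : ℕ) (β : ℝ) :
    Integrable (fun g => Real.log (∑ x : Cfg n, Real.exp (skH n β g x))) (disorder n) := by
  have hE : EG (fun g : Pair n → ℝ => Real.log (∑ x : Cfg n, Real.exp (skH n β g x))) := by
    have h1 : EG (fun g : Pair n → ℝ => ∑ x : Cfg n, Real.exp (skH n β g x)) := by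
      refine EG.sum _ fun x _ => ?_
      simp only [skH_eq]
      exact EG.exp_lin _
    have h2 : EG (fun g : Pair n → ℝ => Real.exp (- skH n β g (fun _ => 1))) := by
      simp only [skH_eq, ← Finset.sum_neg_distrib, ← neg_mul]
      exact EG.exp_lin _
    refine (h1.add h2).mono fun g => ?_
    have hZ := Z_pos (skH n β g)
    have he := Real.exp_pos (- skH n β g (fun _ => 1))
    rw [abs_of_pos (add_pos hZ he), abs_le]
    constructor
    · have h3 : skH n β g (fun _ => 1) ≤ Real.log (∑ x : Cfg n, Real.exp (skH n β g x)) := by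
        rw [Real.le_log_iff_exp_le hZ]
        exact Finset.single_le_sum (f := fun x => Real.exp (skH n β g x))
          (fun _ _ => (Real.exp_pos _).le) (Finset.mem_univ _)
      have h4 := Real.add_one_le_exp (- skH n β g (fun _ => 1))
      linarith
    · have := Real.log_le_sub_one_of_pos hZ
      linarith
  exact hE.integrable (continuous_logZ n β)

instance instProbDisorder (n : ℕ) : IsProbabilityMeasure (disorder n) := instProbStdG (Pair n)

lemma continuous_ovl' (n : ℕ) (β : ℝ) : Continuous (fun g => ovl (skH n β g)) := by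
  unfold ovl avg gibbs
  refine continuous_const.mul (continuous_finsetSum _ fun i _ => continuous_finsetSum _
    fun j _ => Continuous.pow (continuous_finsetSum _ fun x _ => Continuous.mul
      (Continuous.div ?_ ?_ ?_) continuous_const) 2)
  · exact (continuous_skH n β x).rexp
  · exact continuous_finsetSum _ fun x _ => (continuous_skH n β x).rexp
  · exact fun g => (Z_pos (skH n β g)).ne'

lemma integrable_ovl' (n : ℕ) (hn : n ≠ 0) (β : ℝ) :
    Integrable (fun g => ovl (skH n β g)) (disorder n) := by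
  refine (integrable_const (1 : ℝ)).mono' (continuous_ovl' n β).aestronglyMeasurable
    (Filter.Eventually.of_forall fun g => ?_)
  rw [Real.norm_eq_abs, abs_of_nonneg (ovl_nonneg' _)]
  exact ovl_le_one' _ hn

end Cavity

open Cavity in
theorem cavity (n : ℕ) (hn : n ≠ 0) (β δ : ℝ) (hβ : 0 < β) (hδ0 : 0 < δ) (hδ1 : δ < 1)
    (hpos : 0 ≤ β ^ 2 * n / (2 * (n + 1)) + Real.log (1 - δ)) :
    freeE (n + 1) β - freeE n (β * Real.sqrt (n / (n + 1))) ≥
      Real.log 2 + (1 - β ^ 4 * Real.cosh (β ^ 2) / δ ^ 2 *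
        ∫ g, ovl (skH n (β * Real.sqrt (n / (n + 1))) g) ∂(disorder n)) *
        (β ^ 2 * n / (2 * (n + 1)) + Real.log (1 - δ)) := by
  set b := β * Real.sqrt (n / (n + 1)) with hb
  set a := β / Real.sqrt (n + 1) with ha
  set κ := β ^ 2 * n / (2 * (n + 1)) + Real.log (1 - δ) with hκ
  have hmp := glue_mp n
  -- the free energy of `n+1` spins as an integral over the product
  have hI1 : Integrable (fun q => Real.log (∑ x : Cfg (n + 1),
      Real.exp (skH (n + 1) β (glue n q) x))) ((disorder n).prod (stdG (Fin n))) :=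
    hmp.integrable_comp_of_integrable (integrable_logZ (n + 1) β)
  have hE1 : freeE (n + 1) β = ∫ q, Real.log (∑ x : Cfg (n + 1),
      Real.exp (skH (n + 1) β (glue n q) x)) ∂((disorder n).prod (stdG (Fin n))) := by
    unfold freeE
    rw [← hmp.map_eq, integral_map hmp.measurable.aemeasurable
      (by rw [hmp.map_eq]; exact (continuous_logZ (n + 1) β).aestronglyMeasurable)]
  have hlog : ∀ q : (Pair n → ℝ) × (Fin n → ℝ), Real.log (∑ x : Cfg (n + 1),
      Real.exp (skH (n + 1) β (glue n q) x)) = Real.log 2 +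
        Real.log (∑ x : Cfg n, Real.exp (skH n b q.1 x)) + Real.log (Yf (skH n b q.1) a q.2) := by
    intro q
    have hZ := Z_pos (skH n b q.1)
    have hY : 0 < Yf (skH n b q.1) a q.2 := by linarith [one_le_Yf (skH n b q.1) a q.2]
    rw [Z_glue hn β q, Real.log_mul (by positivity) hY.ne', Real.log_mul two_ne_zero hZ.ne']
  have hI2 : Integrable (fun q : (Pair n → ℝ) × (Fin n → ℝ) =>
      Real.log (∑ x : Cfg n, Real.exp (skH n b q.1 x))) ((disorder n).prod (stdG (Fin n))) :=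
    (integrable_logZ n b).comp_fst _
  have hI3 : Integrable (fun q : (Pair n → ℝ) × (Fin n → ℝ) =>
      Real.log (Yf (skH n b q.1) a q.2)) ((disorder n).prod (stdG (Fin n))) := by
    have h := (hI1.sub hI2).sub (integrable_const (Real.log 2))
    refine h.congr (Filter.Eventually.of_forall fun q => ?_)
    simp only [Pi.sub_apply, hlog q]
    ring
  have hE2 : freeE (n + 1) β = Real.log 2 + freeE n b +
      ∫ g, ∫ z, Real.log (Yf (skH n b g) a z) ∂(stdG (Fin n)) ∂(disorder n) := by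
    rw [hE1]
    simp only [hlog]
    have i1 : Integrable (fun q : (Pair n → ℝ) × (Fin n → ℝ) => Real.log 2 +
        Real.log (∑ x : Cfg n, Real.exp (skH n b q.1 x))) ((disorder n).prod (stdG (Fin n))) :=
      (integrable_const _).add hI2
    rw [integral_add i1 hI3, integral_add (integrable_const _) hI2, integral_prod _ hI3]
    congr 1
    congr 1
    · simp
    · rw [integral_fun_fst (fun g => Real.log (∑ x : Cfg n, Real.exp (skH n b g x)))]
      simp [freeE]
  have hI4 : Integrable (fun g => ∫ z, Real.log (Yf (skH n b g) a z) ∂(stdG (Fin n)))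
      (disorder n) := hI3.integral_prod_left
  have hI5 : Integrable (fun g => (1 - β ^ 4 * Real.cosh (β ^ 2) / δ ^ 2 *
      ovl (skH n b g)) * κ) (disorder n) :=
    ((integrable_const _).sub ((integrable_ovl' n hn b).const_mul _)).mul_const _
  have hmain := integral_mono hI5 hI4 fun g => log_Yf_lower (skH n b g) hn β δ hδ0 hδ1 hpos
  have hval : ∫ g, (1 - β ^ 4 * Real.cosh (β ^ 2) / δ ^ 2 * ovl (skH n b g)) * κ ∂(disorder n)
      = (1 - β ^ 4 * Real.cosh (β ^ 2) / δ ^ 2 * ∫ g, ovl (skH n b g) ∂(disorder n)) * κ := by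
    rw [integral_mul_const, integral_sub (integrable_const _)
      ((integrable_ovl' n hn b).const_mul _), integral_const_mul]
    simp
  rw [hval] at hmain
  rw [hE2]
  linarith

end Vale.Agent.P150.Slow
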