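import Vale.Agent.P150.Slow.Defs
import Vale.Agent.P150.Slow.Cavity
import Vale.Agent.P150.RMTnorm

/-!
P150 / Slow module COMPARE: the overlap at `b' = β √(n/(n+1))` is controlled by the one at `β`.

On the event `|∑_p g_p x_p| ≤ (3/2) n √n` for all spin configurations `x` (w.h.p. by `rmt_norm`, `rmt_norm_neg`
with `ε = 1` and `v = x/√n`), `|skH n β g x - skH n b' g x| = (β-b')/√n |∑ g x x| ≤ (β/(2n)) · (3/2) n ≤ β`, so the
Gibbs weights at `β` and `b'` differ by a factor in `[e^{-2β}, e^{2β}]`, and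
`ovl (b') = E_{two replicas} R² ≤ e^{4β} ovl (β)` (write `ovl H = ∑_{x,y} gibbs x gibbs y (n⁻¹∑ x_i y_i)²`).
-/

namespace Vale.Agent.P150.Slow

open MeasureTheory ProbabilityTheory Filter
open scoped Topology

namespace Compare

open Cavity

variable {n : ℕ}

lemma gibbs_le (H1 H2 : Cfg n → ℝ) (D : ℝ) (h : ∀ x, |H1 x - H2 x| ≤ D) (x : Cfg n) :
    gibbs H1 x ≤ Real.exp (2 * D) * gibbs H2 x := by
  have hZ1 := Z_pos H1
  have hZ2 := Z_pos H2
  unfold gibbs
  rw [← mul_div_assoc, div_le_div_iff₀ hZ1 hZ2]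
  have h1 : Real.exp (H1 x) ≤ Real.exp D * Real.exp (H2 x) := by
    rw [← Real.exp_add]
    exact Real.exp_le_exp.2 (by linarith [(abs_le.1 (h x)).2])
  have h2 : ∑ y, Real.exp (H2 y) ≤ Real.exp D * ∑ y, Real.exp (H1 y) := by
    rw [Finset.mul_sum]
    refine Finset.sum_le_sum fun y _ => ?_
    rw [← Real.exp_add]
    exact Real.exp_le_exp.2 (by linarith [(abs_le.1 (h y)).1])
  calc Real.exp (H1 x) * ∑ y, Real.exp (H2 y)
      ≤ (Real.exp D * Real.exp (H2 x)) * (Real.exp D * ∑ y, Real.exp (H1 y)) :=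
        mul_le_mul h1 h2 hZ2.le (by positivity)
    _ = Real.exp (2 * D) * Real.exp (H2 x) * ∑ y, Real.exp (H1 y) := by
        rw [two_mul, Real.exp_add]; ring

lemma ovl_le_of_close (H1 H2 : Cfg n → ℝ) (hn : n ≠ 0) (D : ℝ) (h : ∀ x, |H1 x - H2 x| ≤ D) :
    ovl H1 ≤ Real.exp (4 * D) * ovl H2 := by
  have hn' : (0 : ℝ) < n := Nat.cast_pos.2 (Nat.pos_of_ne_zero hn)
  have h1 : (n : ℝ) ^ 2 * ovl H1 ≤ (n : ℝ) ^ 2 * (Real.exp (4 * D) * ovl H2) := by
    rw [← sum_ov_sq H1 hn, mul_left_comm, ← sum_ov_sq H2 hn, Finset.mul_sum]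
    refine Finset.sum_le_sum fun x _ => ?_
    rw [Finset.mul_sum]
    refine Finset.sum_le_sum fun y _ => ?_
    have hx := gibbs_le H1 H2 D h x
    have hy := gibbs_le H1 H2 D h y
    have hxy : gibbs H1 x * gibbs H1 y ≤
        (Real.exp (2 * D) * gibbs H2 x) * (Real.exp (2 * D) * gibbs H2 y) :=
      mul_le_mul hx hy (gibbs_nonneg _ _)
        (mul_nonneg (Real.exp_pos _).le (gibbs_nonneg _ _))
    have e : (Real.exp (2 * D) * gibbs H2 x) * (Real.exp (2 * D) * gibbs H2 y)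
        = Real.exp (4 * D) * (gibbs H2 x * gibbs H2 y) := by
      rw [show 4 * D = 2 * D + 2 * D by ring, Real.exp_add]; ring
    rw [e] at hxy
    calc gibbs H1 x * gibbs H1 y * ov x y ^ 2
        ≤ Real.exp (4 * D) * (gibbs H2 x * gibbs H2 y) * ov x y ^ 2 :=
          mul_le_mul_of_nonneg_right hxy (sq_nonneg _)
      _ = Real.exp (4 * D) * (gibbs H2 x * gibbs H2 y * ov x y ^ 2) := by ring
  exact le_of_mul_le_mul_left h1 (by positivity)

/-- `0 ≤ (1 - √(n/(n+1))) · (3/2) n ≤ 1` -/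
lemma ratio_bound (hn : n ≠ 0) :
    0 ≤ 1 - Real.sqrt (n / (n + 1)) ∧ (1 - Real.sqrt ((n : ℝ) / (n + 1))) * (3 / 2 * n) ≤ 1 := by
  have hn' : (1 : ℝ) ≤ n := by exact_mod_cast Nat.one_le_iff_ne_zero.2 hn
  set r := Real.sqrt ((n : ℝ) / (n + 1)) with hr
  have hsq : r ^ 2 = n / (n + 1) := Real.sq_sqrt (by positivity)
  have hr0 : 1 / 2 ≤ r := by
    apply Real.le_sqrt_of_sq_le
    rw [le_div_iff₀ (by positivity)]
    linarith
  have hr1 : r ≤ 1 := by
    rw [hr, Real.sqrt_le_one, div_le_one (by positivity)]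
    linarith
  refine ⟨by linarith, ?_⟩
  have h1 : (1 - r) * (1 + r) = 1 / (n + 1) := by
    have : (1 - r) * (1 + r) = 1 - r ^ 2 := by ring
    rw [this, hsq]
    field_simp
    ring
  have h2 : (1 - r) * (3 / 2) ≤ (1 - r) * (1 + r) :=
    mul_le_mul_of_nonneg_left (by linarith) (by linarith)
  rw [h1] at h2
  have h3 : (1 - r) * (3 / 2) * n ≤ 1 / ((n : ℝ) + 1) * n :=
    mul_le_mul_of_nonneg_right h2 (by linarith)
  have h4 : 1 / ((n : ℝ) + 1) * n ≤ 1 := by
    rw [one_div, inv_mul_le_iff₀ (by positivity)]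
    linarith
  linarith

lemma abs_sub_skH (hn : n ≠ 0) (β : ℝ) (hβ : 0 < β) (g : Pair n → ℝ) (x : Cfg n)
    (h : |∑ p : Pair n, g p * val (x p.1.1) * val (x p.1.2)| ≤ 3 / 2 * n * Real.sqrt n) :
    |skH n (β * Real.sqrt (n / (n + 1))) g x - skH n β g x| ≤ β := by
  have hn' : (0 : ℝ) < n := Nat.cast_pos.2 (Nat.pos_of_ne_zero hn)
  have hs : 0 < Real.sqrt n := Real.sqrt_pos.2 hn'
  obtain ⟨h1, h2⟩ := ratio_bound hn
  set r := Real.sqrt ((n : ℝ) / (n + 1)) with hr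
  set S := ∑ p : Pair n, g p * val (x p.1.1) * val (x p.1.2) with hS
  have e : skH n (β * r) g x - skH n β g x = -(β * (1 - r) / Real.sqrt n * S) := by
    unfold skH
    rw [← hS]
    ring
  rw [e, abs_neg, abs_mul, abs_of_nonneg (div_nonneg (mul_nonneg hβ.le h1) hs.le)]
  calc β * (1 - r) / Real.sqrt n * |S|
      ≤ β * (1 - r) / Real.sqrt n * (3 / 2 * n * Real.sqrt n) :=
        mul_le_mul_of_nonneg_left h (div_nonneg (mul_nonneg hβ.le h1) hs.le)
    _ = β * ((1 - r) * (3 / 2 * n)) := by field_simp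
    _ ≤ β * 1 := mul_le_mul_of_nonneg_left h2 hβ.le
    _ = β := mul_one β

/-- the quadratic form at a spin configuration -/
lemma quad_cfg (hn : n ≠ 0) (g : Pair n → ℝ) (x : Cfg n) :
    ∑ i, (val (x i) / Real.sqrt n) ^ 2 = 1 ∧
    ∑ p : Pair n, 2 * g p * (val (x p.1.1) / Real.sqrt n) * (val (x p.1.2) / Real.sqrt n)
      = 2 / n * ∑ p : Pair n, g p * val (x p.1.1) * val (x p.1.2) := by
  have hn' : (0 : ℝ) < n := Nat.cast_pos.2 (Nat.pos_of_ne_zero hn)
  have hs : Real.sqrt n ^ 2 = n := Real.sq_sqrt hn'.le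
  have hs0 : Real.sqrt n ≠ 0 := (Real.sqrt_pos.2 hn').ne'
  constructor
  · simp only [div_pow, val_sq, hs, Finset.sum_const, Finset.card_univ, Fintype.card_fin,
      nsmul_eq_mul]
    field_simp
  · rw [Finset.mul_sum]
    refine Finset.sum_congr rfl fun p _ => ?_
    have : 2 * g p * (val (x p.1.1) / Real.sqrt n) * (val (x p.1.2) / Real.sqrt n)
        = 2 * g p * val (x p.1.1) * val (x p.1.2) / Real.sqrt n ^ 2 := by
      field_simp
    rw [this, hs]
    ring

end Compare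

open Compare

theorem ovl_compare (β : ℝ) (hβ : 0 < β) :
    Tendsto (fun n : ℕ => disorder n {g | ¬ ovl (skH n (β * Real.sqrt (n / (n + 1))) g)
      ≤ Real.exp (4 * β) * ovl (skH n β g)}) atTop (𝓝 0) := by
  have hA := rmt_norm 1 one_pos
  have hB := rmt_norm_neg 1 one_pos
  have hAB := hA.add hB
  rw [add_zero] at hAB
  refine tendsto_of_tendsto_of_tendsto_of_le_of_le' tendsto_const_nhds hAB
    (Eventually.of_forall fun _ => zero_le) ?_
  filter_upwards [eventually_ne_atTop 0] with n hn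
  refine le_trans (measure_mono ?_) (measure_union_le _ _)
  intro g hg
  by_contra hcon
  rw [Set.mem_union, not_or] at hcon
  obtain ⟨hnA, hnB⟩ := hcon
  rw [Set.mem_ofPred_eq] at hg hnA hnB
  push Not at hnA hnB
  apply hg
  refine ovl_le_of_close _ _ hn β fun x => abs_sub_skH hn β hβ g x ?_
  have hn' : (0 : ℝ) < n := Nat.cast_pos.2 (Nat.pos_of_ne_zero hn)
  obtain ⟨h1, h2⟩ := quad_cfg hn g x
  have hu := hnA (fun i => val (x i) / Real.sqrt n) h1
  have hl := hnB (fun i => val (x i) / Real.sqrt n) h1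
  rw [h2] at hu hl
  set S := ∑ p : Pair n, g p * val (x p.1.1) * val (x p.1.2) with hS
  have e : S = (n : ℝ) / 2 * (2 / n * S) := by field_simp
  rw [abs_le]
  constructor
  · have := mul_le_mul_of_nonneg_left hl (by positivity : (0 : ℝ) ≤ (n : ℝ) / 2)
    rw [← e] at this
    linarith
  · have := mul_le_mul_of_nonneg_left hu (by positivity : (0 : ℝ) ≤ (n : ℝ) / 2)
    rw [← e] at this
    linarith

end Vale.Agent.P150.Slow
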