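import Vale.Agent.P150.Core
import Vale.Agent.P150.GaussCalc

/-!
P150 / Slow: definitions for the low-temperature part (`β > 1`: no fast mixing).
-/

namespace Vale.Agent.P150.Slow

open MeasureTheory ProbabilityTheory
open scoped BigOperators

noncomputable section

/-- Mean squared overlap `⟨R²⟩ = n⁻² ∑_{i,j} ⟨x_i x_j⟩²`. -/
def ovl {n : ℕ} (H : Cfg n → ℝ) : ℝ :=
  1 / (n : ℝ) ^ 2 * ∑ i, ∑ j, avg H (fun x => val (x i) * val (x j)) ^ 2

/-- Mean free energy `E log Z_n(β)`. -/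
def freeE (n : ℕ) (β : ℝ) : ℝ :=
  ∫ g, Real.log (∑ x : Cfg n, Real.exp (skH n β g x)) ∂(disorder n)

end

end Vale.Agent.P150.Slow
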