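import Vale.Agent.P150.Slow.Defs
import Vale.Agent.P150.Spec
import Vale.Agent.P150.Gap

/-!
P150 / Slow module GAPOVL: a spectral gap bounds the mean squared overlap of an even Gibbs measure.

`K ≤ specGap H`, `K > 0` gives `K var f ≤ dir f` for all `f` (`dir ≥ 0`, `csInf_le`), so `cov_le` gives
`var (lin v) ≤ |v|²/K`.  `M_ij = ⟨x_i x_j⟩`; `⟨x_i⟩ = 0` by evenness, so `vᵀMv = var (lin v)`.
For each `i`, `u := M e_i` : `0 ≤ ⟨(x_i - K lin u)²⟩ = 1 - 2K|u|² + K² uᵀMu ≤ 1 - K|u|²`,
so `∑_j M_ij² ≤ 1/K`; sum over `i`.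
-/

namespace Vale.Agent.P150.Slow

open scoped BigOperators

variable {n : ℕ}

namespace GapOvl

lemma var_eq (H f : Cfg n → ℝ) : var H f = avg H (fun x => f x ^ 2) - avg H f ^ 2 := by
  unfold var
  have : (fun x => (f x - avg H f) ^ 2) = fun x => f x ^ 2 - 2 * avg H f * f x + avg H f ^ 2 := by
    funext x; ring
  rw [this, avg_add H (fun x => f x ^ 2 - 2 * avg H f * f x) (fun _ => avg H f ^ 2),
    avg_sub, avg_const_mul, avg_const]
  ring

lemma dir_eq (H f : Cfg n → ℝ) : dir H f = avg H (fun x => f x * Lop H f x) := by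
  unfold dir
  simp only [gen_eq_neg_Lop, neg_neg]

lemma dir_nonneg (H f : Cfg n → ℝ) : 0 ≤ dir H f := by
  rw [dir_eq, Gap.avg_mul_Lop]
  exact Finset.sum_nonneg fun i _ => avg_nonneg H fun x => sq_nonneg _

lemma var_nonneg (H f : Cfg n → ℝ) : 0 ≤ var H f := avg_nonneg H fun x => sq_nonneg _

lemma poincare_of_gap (H : Cfg n → ℝ) (K : ℝ) (hgap : K ≤ specGap H) (f : Cfg n → ℝ) :
    K * var H f ≤ avg H (fun x => f x * Lop H f x) := by
  rw [← dir_eq]
  by_cases hv : var H f = 0
  · rw [hv, mul_zero]; exact dir_nonneg H f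
  · have hpos : 0 < var H f := lt_of_le_of_ne (var_nonneg H f) (Ne.symm hv)
    have hle : specGap H ≤ dir H f / var H f := by
      refine csInf_le ⟨0, ?_⟩ ⟨f, hv, rfl⟩
      rintro r ⟨g, _, rfl⟩
      exact div_nonneg (dir_nonneg H g) (var_nonneg H g)
    have h2 : K ≤ dir H f / var H f := hgap.trans hle
    rwa [le_div_iff₀ hpos] at h2

/-- the Gibbs measure of an even exponent is even -/
lemma avg_neg_arg (H : Cfg n → ℝ) (heven : ∀ x : Cfg n, H (fun i => - x i) = H x)
    (f : Cfg n → ℝ) : avg H (fun x => f (fun i => - x i)) = avg H f := by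
  let e : Cfg n ≃ Cfg n :=
    { toFun := fun x i => - x i
      invFun := fun x i => - x i
      left_inv := fun x => by funext i; simp
      right_inv := fun x => by funext i; simp }
  unfold avg
  rw [← Equiv.sum_comp e (fun x => gibbs H x * f x)]
  refine Finset.sum_congr rfl fun x _ => ?_
  have : gibbs H (e x) = gibbs H x := by
    unfold gibbs
    change Real.exp (H (fun i => - x i)) / _ = _
    rw [heven]
  rw [this]
  rfl

lemma avg_val (H : Cfg n → ℝ) (heven : ∀ x : Cfg n, H (fun i => - x i) = H x) (i : Fin n) :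
    avg H (fun x => val (x i)) = 0 := by
  have h := avg_neg_arg H heven (fun x => val (x i))
  simp only [val_neg] at h
  rw [avg_neg] at h
  linarith

lemma avg_lin (H : Cfg n → ℝ) (heven : ∀ x : Cfg n, H (fun i => - x i) = H x)
    (v : Fin n → ℝ) : avg H (lin v) = 0 := by
  unfold lin
  rw [avg_sum Finset.univ H (fun i x => v i * val (x i))]
  refine Finset.sum_eq_zero fun i _ => ?_
  rw [avg_const_mul, avg_val H heven, mul_zero]

lemma row_le (H : Cfg n → ℝ) (heven : ∀ x : Cfg n, H (fun i => - x i) = H x) (K : ℝ)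
    (hK : 0 < K) (hgap : K ≤ specGap H) (i : Fin n) :
    ∑ j, avg H (fun x => val (x i) * val (x j)) ^ 2 ≤ 1 / K := by
  set u : Fin n → ℝ := fun j => avg H (fun x => val (x i) * val (x j)) with hu
  have hvar := cov_le H K hK (poincare_of_gap H K hgap) u
  rw [var_eq, avg_lin H heven] at hvar
  have hcross : avg H (fun x => val (x i) * lin u x) = ∑ j, u j ^ 2 := by
    have : (fun x : Cfg n => val (x i) * lin u x)
        = fun x => ∑ j, u j * (val (x i) * val (x j)) := by
      funext x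
      unfold lin
      rw [Finset.mul_sum]
      exact Finset.sum_congr rfl fun j _ => by ring
    rw [this, avg_sum Finset.univ H (fun j x => u j * (val (x i) * val (x j)))]
    refine Finset.sum_congr rfl fun j _ => ?_
    rw [avg_const_mul, sq]
  have hnn : 0 ≤ avg H (fun x => (val (x i) - K * lin u x) ^ 2) :=
    avg_nonneg H fun x => sq_nonneg _
  have hexp : avg H (fun x => (val (x i) - K * lin u x) ^ 2)
      = 1 - 2 * K * avg H (fun x => val (x i) * lin u x) + K ^ 2 * avg H (fun x => lin u x ^ 2) := by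
    have : (fun x : Cfg n => (val (x i) - K * lin u x) ^ 2)
        = fun x => (1 - 2 * K * (val (x i) * lin u x)) + K ^ 2 * lin u x ^ 2 := by
      funext x
      have := val_sq (x i)
      linear_combination this
    rw [this, avg_add, avg_sub, avg_const, avg_const_mul, avg_const_mul]
  rw [hexp, hcross] at hnn
  have h1 : K ^ 2 * avg H (fun x => lin u x ^ 2) ≤ K * ∑ j, u j ^ 2 := by
    have h2 : avg H (fun x => lin u x ^ 2) ≤ 1 / K * ∑ j, u j ^ 2 := by linarith
    have h3 := mul_le_mul_of_nonneg_left h2 (sq_nonneg K)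
    have h4 : K ^ 2 * (1 / K * ∑ j, u j ^ 2) = K * ∑ j, u j ^ 2 := by field_simp
    rwa [h4] at h3
  rw [le_div_iff₀ hK]
  linarith

end GapOvl

open GapOvl

theorem ovl_le_of_gap (H : Cfg n → ℝ) (hn : n ≠ 0)
    (heven : ∀ x : Cfg n, H (fun i => - x i) = H x) (K : ℝ) (hK : 0 < K)
    (hgap : K ≤ specGap H) : ovl H ≤ 1 / (n * K) := by
  have hn' : (0 : ℝ) < n := Nat.cast_pos.2 (Nat.pos_of_ne_zero hn)
  unfold ovl
  have h1 : ∑ i, ∑ j, avg H (fun x => val (x i) * val (x j)) ^ 2 ≤ ∑ _i : Fin n, 1 / K :=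
    Finset.sum_le_sum fun i _ => row_le H heven K hK hgap i
  rw [Finset.sum_const, Finset.card_univ, Fintype.card_fin, nsmul_eq_mul] at h1
  calc 1 / (n : ℝ) ^ 2 * ∑ i, ∑ j, avg H (fun x => val (x i) * val (x j)) ^ 2
      ≤ 1 / (n : ℝ) ^ 2 * (n * (1 / K)) := mul_le_mul_of_nonneg_left h1 (by positivity)
    _ = 1 / (n * K) := by field_simp

theorem ovl_nonneg (H : Cfg n → ℝ) : 0 ≤ ovl H := by
  unfold ovl
  exact mul_nonneg (by positivity)
    (Finset.sum_nonneg fun i _ => Finset.sum_nonneg fun j _ => sq_nonneg _)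

theorem ovl_le_one (H : Cfg n → ℝ) : ovl H ≤ 1 := by
  unfold ovl
  have h0 : ∀ i j : Fin n, avg H (fun x => val (x i) * val (x j)) ^ 2 ≤ 1 := by
    intro i j
    have h1 : avg H (fun x => val (x i) * val (x j)) ≤ 1 := by
      rw [← avg_const H 1]
      refine avg_mono H fun x => ?_
      rcases val_eq (x i) with h | h <;> rcases val_eq (x j) with h' | h' <;> rw [h, h'] <;>
        norm_num
    have h2 : -1 ≤ avg H (fun x => val (x i) * val (x j)) := by
      rw [← avg_const H (-1)]
      refine avg_mono H fun x => ?_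
      rcases val_eq (x i) with h | h <;> rcases val_eq (x j) with h' | h' <;> rw [h, h'] <;>
        norm_num
    nlinarith
  have h3 : ∑ i : Fin n, ∑ j : Fin n, avg H (fun x => val (x i) * val (x j)) ^ 2
      ≤ (n : ℝ) ^ 2 := by
    calc ∑ i : Fin n, ∑ j : Fin n, avg H (fun x => val (x i) * val (x j)) ^ 2
        ≤ ∑ _i : Fin n, ∑ _j : Fin n, (1 : ℝ) :=
          Finset.sum_le_sum fun i _ => Finset.sum_le_sum fun j _ => h0 i j
      _ = (n : ℝ) ^ 2 := by
          simp only [Finset.sum_const, Finset.card_univ, Fintype.card_fin, nsmul_eq_mul, mul_one]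
          ring
  rcases Nat.eq_zero_or_pos n with h | h
  · subst h; simp
  · have hn' : (0 : ℝ) < n := Nat.cast_pos.2 h
    calc 1 / (n : ℝ) ^ 2 * ∑ i, ∑ j, avg H (fun x => val (x i) * val (x j)) ^ 2
        ≤ 1 / (n : ℝ) ^ 2 * (n : ℝ) ^ 2 := mul_le_mul_of_nonneg_left h3 (by positivity)
      _ = 1 := by field_simp

end Vale.Agent.P150.Slow
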