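import Vale.Agent.P150.Slow.Interp
import Vale.Agent.P150.Slow.Cavity

/-!
P150 / Slow module GUERRA: replica-symmetric upper bound.

On `Pair n ⊕ Fin n` put `H_φ(x) = cos φ · skH n β g x + sin φ · β √q ∑_i z_i x_i`, `m(φ) = E log ∑_x e^{H_φ(x)}`.
IBP (`Interp.hasDerivAt_free`) :
`m'(φ) = sin φ cos φ · {β² q ∑_i (1 - ⟨x_i⟩²) - (β²/n) ∑_{i<j} (1 - ⟨x_i x_j⟩²)}`
`= - sin φ cos φ · n (β²/2) {(1-q)² - E⟨(R-q)²⟩} ≥ - sin φ cos φ · n (β²/2)(1-q)²`.
Integrate over `[0, π/2]` : `m(π/2) - m(0) ≥ - n β² (1-q)²/4`; `m(0) = freeE n β`,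
`m(π/2) = n (log 2 + E log cosh (β √q z))`.
-/

namespace Vale.Agent.P150.Slow

open MeasureTheory ProbabilityTheory
open scoped BigOperators

namespace Guerra

open Interp Cavity

variable {n : ℕ}

/-! ### sums over pairs -/

lemma sum_pair_sym (f : Fin n → Fin n → ℝ) (hs : ∀ i j, f i j = f j i) :
    ∑ i, ∑ j, f i j = 2 * ∑ p : Pair n, f p.1.1 p.1.2 + ∑ i, f i i := by
  have h1 : ∑ p : Pair n, f p.1.1 p.1.2
      = ∑ r : Fin n × Fin n, if r.1 < r.2 then f r.1 r.2 else 0 := by
    rw [← Finset.sum_filter]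
    rw [Finset.sum_subtype (Finset.univ.filter fun r : Fin n × Fin n => r.1 < r.2)
      (p := fun r : Fin n × Fin n => r.1 < r.2) (by intro r; simp) (fun r => f r.1 r.2)]
  have h2 : ∑ r : Fin n × Fin n, (if r.2 < r.1 then f r.1 r.2 else 0)
      = ∑ r : Fin n × Fin n, if r.1 < r.2 then f r.1 r.2 else 0 := by
    rw [← (Equiv.prodComm (Fin n) (Fin n)).sum_comp]
    refine Finset.sum_congr rfl fun r _ => ?_
    simp only [Equiv.prodComm_apply, Prod.fst_swap, Prod.snd_swap]
    rw [hs r.2 r.1]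
    by_cases h : r.1 < r.2 <;> simp [h]
  have h3 : ∑ r : Fin n × Fin n, (if r.1 = r.2 then f r.1 r.2 else 0) = ∑ i, f i i := by
    rw [Fintype.sum_prod_type]
    refine Finset.sum_congr rfl fun i _ => ?_
    simp
  have h4 : ∑ i, ∑ j, f i j = ∑ r : Fin n × Fin n, ((if r.1 < r.2 then f r.1 r.2 else 0)
      + (if r.2 < r.1 then f r.1 r.2 else 0) + (if r.1 = r.2 then f r.1 r.2 else 0)) := by
    rw [← Fintype.sum_prod_type']
    refine Finset.sum_congr rfl fun r _ => ?_
    rcases lt_trichotomy r.1 r.2 with h | h | h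
    · rw [if_pos h, if_neg (not_lt.2 h.le), if_neg h.ne]; ring
    · rw [if_neg (by rw [h]; exact lt_irrefl _), if_neg (by rw [h]; exact lt_irrefl _),
        if_pos h]; ring
    · rw [if_neg (not_lt.2 h.le), if_pos h, if_neg h.ne']; ring
  rw [h4, Finset.sum_add_distrib, Finset.sum_add_distrib, h2, h3, ← h1]
  ring

/-! ### two replicas -/

lemma sum_ov (H : Cfg n → ℝ) :
    ∑ x, ∑ y, gibbs H x * gibbs H y * ov x y = ∑ i, avg H (fun x => val (x i)) ^ 2 := by
  unfold ov avg
  have h2 : ∀ x : Cfg n, ∑ y : Cfg n, gibbs H x * gibbs H y * (∑ i, val (x i) * val (y i))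
      = ∑ i, (gibbs H x * val (x i)) * ∑ y : Cfg n, (gibbs H y * val (y i)) := by
    intro x
    have : ∀ y : Cfg n, gibbs H x * gibbs H y * (∑ i, val (x i) * val (y i)) =
        ∑ i, (gibbs H x * val (x i)) * (gibbs H y * val (y i)) := by
      intro y
      rw [Finset.mul_sum]
      exact Finset.sum_congr rfl fun i _ => by ring
    simp only [this]
    rw [Finset.sum_comm]
    refine Finset.sum_congr rfl fun i _ => ?_
    rw [Finset.mul_sum]
  simp only [h2]
  rw [Finset.sum_comm]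
  refine Finset.sum_congr rfl fun i _ => ?_
  rw [← Finset.sum_mul, sq]

lemma overlap_ineq (H : Cfg n → ℝ) (hn : n ≠ 0) (q : ℝ) :
    0 ≤ ∑ i, ∑ j, avg H (fun x => val (x i) * val (x j)) ^ 2
      - 2 * n * q * ∑ i, avg H (fun x => val (x i)) ^ 2 + (n : ℝ) ^ 2 * q ^ 2 := by
  have hn' : (n : ℝ) ≠ 0 := Nat.cast_ne_zero.2 hn
  have h1 : 0 ≤ ∑ x, ∑ y, gibbs H x * gibbs H y * (ov x y - n * q) ^ 2 :=
    Finset.sum_nonneg fun x _ => Finset.sum_nonneg fun y _ =>
      mul_nonneg (mul_nonneg (gibbs_nonneg H x) (gibbs_nonneg H y)) (sq_nonneg _)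
  have h2 : ∑ x, ∑ y, gibbs H x * gibbs H y * (ov x y - n * q) ^ 2 =
      ∑ x, ∑ y, gibbs H x * gibbs H y * ov x y ^ 2
        - 2 * n * q * ∑ x, ∑ y, gibbs H x * gibbs H y * ov x y + (n : ℝ) ^ 2 * q ^ 2 := by
    have e : ∀ x y : Cfg n, gibbs H x * gibbs H y * (ov x y - n * q) ^ 2 =
        gibbs H x * gibbs H y * ov x y ^ 2 - 2 * n * q * (gibbs H x * gibbs H y * ov x y)
          + gibbs H x * (gibbs H y * ((n : ℝ) ^ 2 * q ^ 2)) := by
      intro x y; ring
    simp only [e, Finset.sum_add_distrib, Finset.sum_sub_distrib, ← Finset.mul_sum]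
    congr 1
    simp only [← Finset.sum_mul, sum_gibbs]
    ring
  rw [h2, sum_ov_sq H hn, sum_ov] at h1
  have h3 : (n : ℝ) ^ 2 * ovl H = ∑ i, ∑ j, avg H (fun x => val (x i) * val (x j)) ^ 2 := by
    unfold ovl
    field_simp
  rw [h3] at h1
  exact h1

/-! ### the interpolating Hamiltonian -/

/-- interpolating coefficients -/
noncomputable def cf (n : ℕ) (β q φ : ℝ) (k : Pair n ⊕ Fin n) (x : Cfg n) : ℝ :=
  Sum.elim (fun p : Pair n => Real.cos φ * (β / Real.sqrt n * (val (x p.1.1) * val (x p.1.2))))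
    (fun i : Fin n => Real.sin φ * (β * Real.sqrt q * val (x i))) k

/-- their derivatives -/
noncomputable def cf' (n : ℕ) (β q φ : ℝ) (k : Pair n ⊕ Fin n) (x : Cfg n) : ℝ :=
  Sum.elim (fun p : Pair n => -Real.sin φ * (β / Real.sqrt n * (val (x p.1.1) * val (x p.1.2))))
    (fun i : Fin n => Real.cos φ * (β * Real.sqrt q * val (x i))) k

lemma hasDerivAt_cf (β q φ : ℝ) (k : Pair n ⊕ Fin n) (x : Cfg n) :
    HasDerivAt (fun φ => cf n β q φ k x) (cf' n β q φ k x) φ := by
  rcases k with p | i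
  · exact (Real.hasDerivAt_cos φ).mul_const _
  · exact (Real.hasDerivAt_sin φ).mul_const _

lemma abs_cf' (β q φ : ℝ) (k : Pair n ⊕ Fin n) (x : Cfg n) :
    |cf' n β q φ k x| ≤ |β / Real.sqrt n| + |β * Real.sqrt q| := by
  have h1 := abs_nonneg (β / Real.sqrt n)
  have h2 := abs_nonneg (β * Real.sqrt q)
  rcases k with p | i
  · simp only [cf', Sum.elim_inl]
    rw [abs_mul, abs_mul, abs_mul, abs_val, abs_val, abs_neg]
    have := Real.abs_sin_le_one φ
    nlinarith
  · simp only [cf', Sum.elim_inr]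
    rw [abs_mul, abs_mul, abs_val]
    have := Real.abs_cos_le_one φ
    nlinarith

/-- the mean free energy along the path -/
noncomputable def mf (n : ℕ) (β q φ : ℝ) : ℝ :=
  ∫ z, Real.log (∑ x : Cfg n, Real.exp (Hl (cf n β q φ) z x)) ∂(stdG (Pair n ⊕ Fin n))

lemma term_inl (β q φ : ℝ) (H : Cfg n → ℝ) (p : Pair n) :
    avg H (fun x => cf n β q φ (Sum.inl p) x * cf' n β q φ (Sum.inl p) x)
      - avg H (cf n β q φ (Sum.inl p)) * avg H (cf' n β q φ (Sum.inl p))
    = -(Real.sin φ * Real.cos φ) * ((β / Real.sqrt n) ^ 2 *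
        (1 - avg H (fun x => val (x p.1.1) * val (x p.1.2)) ^ 2)) := by
  have e1 : avg H (fun x => cf n β q φ (Sum.inl p) x * cf' n β q φ (Sum.inl p) x)
      = -(Real.sin φ * Real.cos φ) * (β / Real.sqrt n) ^ 2 := by
    have : (fun x => cf n β q φ (Sum.inl p) x * cf' n β q φ (Sum.inl p) x)
        = fun _ => -(Real.sin φ * Real.cos φ) * (β / Real.sqrt n) ^ 2 := by
      funext x
      simp only [cf, cf', Sum.elim_inl]
      have h1 := val_sq (x p.1.1)
      have h2 := val_sq (x p.1.2)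
      calc Real.cos φ * (β / Real.sqrt n * (val (x p.1.1) * val (x p.1.2))) *
            (-Real.sin φ * (β / Real.sqrt n * (val (x p.1.1) * val (x p.1.2))))
          = -(Real.sin φ * Real.cos φ) * (β / Real.sqrt n) ^ 2 *
              (val (x p.1.1) ^ 2 * val (x p.1.2) ^ 2) := by ring
        _ = _ := by rw [h1, h2]; ring
    rw [this, avg_const]
  have e2 : avg H (cf n β q φ (Sum.inl p)) = Real.cos φ * (β / Real.sqrt n) *
      avg H (fun x => val (x p.1.1) * val (x p.1.2)) := by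
    rw [← avg_const_mul]
    congr 1
    funext x
    simp only [cf, Sum.elim_inl]
    ring
  have e3 : avg H (cf' n β q φ (Sum.inl p)) = -Real.sin φ * (β / Real.sqrt n) *
      avg H (fun x => val (x p.1.1) * val (x p.1.2)) := by
    rw [← avg_const_mul]
    congr 1
    funext x
    simp only [cf', Sum.elim_inl]
    ring
  rw [e1, e2, e3]
  ring

lemma term_inr (β q φ : ℝ) (hq0 : 0 ≤ q) (H : Cfg n → ℝ) (i : Fin n) :
    avg H (fun x => cf n β q φ (Sum.inr i) x * cf' n β q φ (Sum.inr i) x)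
      - avg H (cf n β q φ (Sum.inr i)) * avg H (cf' n β q φ (Sum.inr i))
    = (Real.sin φ * Real.cos φ) * (β ^ 2 * q * (1 - avg H (fun x => val (x i)) ^ 2)) := by
  have hsq : Real.sqrt q ^ 2 = q := Real.sq_sqrt hq0
  have e1 : avg H (fun x => cf n β q φ (Sum.inr i) x * cf' n β q φ (Sum.inr i) x)
      = (Real.sin φ * Real.cos φ) * (β ^ 2 * q) := by
    have : (fun x => cf n β q φ (Sum.inr i) x * cf' n β q φ (Sum.inr i) x)
        = fun _ => (Real.sin φ * Real.cos φ) * (β ^ 2 * q) := by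
      funext x
      simp only [cf, cf', Sum.elim_inr]
      have h1 := val_sq (x i)
      calc Real.sin φ * (β * Real.sqrt q * val (x i)) * (Real.cos φ * (β * Real.sqrt q * val (x i)))
          = (Real.sin φ * Real.cos φ) * (β ^ 2 * Real.sqrt q ^ 2) * val (x i) ^ 2 := by ring
        _ = _ := by rw [h1, hsq]; ring
    rw [this, avg_const]
  have e2 : avg H (cf n β q φ (Sum.inr i)) = Real.sin φ * (β * Real.sqrt q) *
      avg H (fun x => val (x i)) := by
    rw [← avg_const_mul]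
    congr 1
    funext x
    simp only [cf, Sum.elim_inr]
    ring
  have e3 : avg H (cf' n β q φ (Sum.inr i)) = Real.cos φ * (β * Real.sqrt q) *
      avg H (fun x => val (x i)) := by
    rw [← avg_const_mul]
    congr 1
    funext x
    simp only [cf', Sum.elim_inr]
    ring
  rw [e1, e2, e3]
  have : Real.sin φ * (β * Real.sqrt q) * avg H (fun x => val (x i)) *
      (Real.cos φ * (β * Real.sqrt q) * avg H (fun x => val (x i)))
      = Real.sin φ * Real.cos φ * (β ^ 2 * Real.sqrt q ^ 2) * avg H (fun x => val (x i)) ^ 2 := by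
    ring
  rw [this, hsq]
  ring

/-- pointwise lower bound of the derivative -/
lemma deriv_lower (β q φ : ℝ) (hn : n ≠ 0) (hq0 : 0 ≤ q) (H : Cfg n → ℝ)
    (hsc : 0 ≤ Real.sin φ * Real.cos φ) :
    -(Real.sin φ * Real.cos φ) * (n * β ^ 2 / 2 * (1 - q) ^ 2) ≤
      ∑ k, (avg H (fun x => cf n β q φ k x * cf' n β q φ k x)
        - avg H (cf n β q φ k) * avg H (cf' n β q φ k)) := by
  have hn' : (0 : ℝ) < n := Nat.cast_pos.2 (Nat.pos_of_ne_zero hn)
  rw [Fintype.sum_sum_type]
  simp only [term_inl, term_inr _ _ _ hq0]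
  rw [← Finset.mul_sum, ← Finset.mul_sum, ← Finset.mul_sum, ← Finset.mul_sum]
  have hpair : 2 * ∑ p : Pair n, (1 - avg H (fun x => val (x p.1.1) * val (x p.1.2)) ^ 2)
      = (n : ℝ) ^ 2 - ∑ i, ∑ j, avg H (fun x => val (x i) * val (x j)) ^ 2 := by
    have h := sum_pair_sym (n := n)
      (fun i j => 1 - avg H (fun x => val (x i) * val (x j)) ^ 2)
      (fun i j => by
        congr 3
        funext x
        ring)
    have hd : ∀ i : Fin n, 1 - avg H (fun x => val (x i) * val (x i)) ^ 2 = 0 := by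
      intro i
      have : (fun x : Cfg n => val (x i) * val (x i)) = fun _ => 1 := by
        funext x; exact val_mul_self _
      rw [this, avg_const]; ring
    simp only [hd, Finset.sum_const_zero, add_zero] at h
    rw [← h]
    simp only [Finset.sum_sub_distrib, Finset.sum_const, Finset.card_univ, Fintype.card_fin,
      nsmul_eq_mul, mul_one]
    ring
  have hone : ∑ i : Fin n, (1 - avg H (fun x => val (x i)) ^ 2)
      = n - ∑ i, avg H (fun x => val (x i)) ^ 2 := by
    simp only [Finset.sum_sub_distrib, Finset.sum_const, Finset.card_univ, Fintype.card_fin,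
      nsmul_eq_mul, mul_one]
  have hP : ∑ p : Pair n, (1 - avg H (fun x => val (x p.1.1) * val (x p.1.2)) ^ 2)
      = ((n : ℝ) ^ 2 - ∑ i, ∑ j, avg H (fun x => val (x i) * val (x j)) ^ 2) / 2 := by linarith
  rw [hP, hone]
  have hov := overlap_ineq H hn q
  set S2 := ∑ i, ∑ j, avg H (fun x => val (x i) * val (x j)) ^ 2
  set S1 := ∑ i, avg H (fun x => val (x i)) ^ 2
  have hb : (β / Real.sqrt n) ^ 2 = β ^ 2 / n := by rw [div_pow, Real.sq_sqrt hn'.le]
  rw [hb]
  have key : 0 ≤ β ^ 2 * (q * ((n : ℝ) - S1) - ((n : ℝ) ^ 2 - S2) / 2 / n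
      + (n : ℝ) / 2 * (1 - q) ^ 2) := by
    apply mul_nonneg (sq_nonneg β)
    have e : q * ((n : ℝ) - S1) - ((n : ℝ) ^ 2 - S2) / 2 / n + (n : ℝ) / 2 * (1 - q) ^ 2
        = (S2 - 2 * n * q * S1 + (n : ℝ) ^ 2 * q ^ 2) / (2 * n) := by
      field_simp
      ring
    rw [e]
    exact div_nonneg hov (by linarith)
  have hfin := mul_nonneg hsc key
  have e2 : -(Real.sin φ * Real.cos φ) * (β ^ 2 / n * (((n : ℝ) ^ 2 - S2) / 2))
      + Real.sin φ * Real.cos φ * (β ^ 2 * q * ((n : ℝ) - S1))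
      - -(Real.sin φ * Real.cos φ) * (n * β ^ 2 / 2 * (1 - q) ^ 2)
      = Real.sin φ * Real.cos φ * (β ^ 2 * (q * ((n : ℝ) - S1) - ((n : ℝ) ^ 2 - S2) / 2 / n
      + (n : ℝ) / 2 * (1 - q) ^ 2)) := by
    field_simp
    ring
  linarith

/-! ### end points -/

lemma integral_inl {ι κ : Type} [Fintype ι] [Fintype κ] (G : (ι → ℝ) → ℝ) :
    ∫ z, G (fun i => z (Sum.inl i)) ∂(stdG (ι ⊕ κ)) = ∫ g, G g ∂(stdG ι) := by
  have h1 := measurePreserving_sumPiEquivProdPi (X := fun _ : ι ⊕ κ => ℝ)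
    (fun _ => gaussianReal 0 1)
  have h2 := h1.integral_comp' (g := fun q : (ι → ℝ) × (κ → ℝ) => G q.1)
  rw [integral_fun_fst] at h2
  simp only [probReal_univ, one_smul] at h2
  exact h2

lemma integral_inr {ι κ : Type} [Fintype ι] [Fintype κ] (G : (κ → ℝ) → ℝ) :
    ∫ z, G (fun i => z (Sum.inr i)) ∂(stdG (ι ⊕ κ)) = ∫ g, G g ∂(stdG κ) := by
  have h1 := measurePreserving_sumPiEquivProdPi (X := fun _ : ι ⊕ κ => ℝ)
    (fun _ => gaussianReal 0 1)
  have h2 := h1.integral_comp' (g := fun q : (ι → ℝ) × (κ → ℝ) => G q.2)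
  rw [integral_fun_snd] at h2
  simp only [probReal_univ, one_smul] at h2
  exact h2

lemma mf_zero (β q : ℝ) : mf n β q 0 = freeE n β := by
  unfold mf freeE
  have e : ∀ (z : Pair n ⊕ Fin n → ℝ) (x : Cfg n), Hl (cf n β q 0) z x
      = skH n β (fun p => z (Sum.inl p)) x := by
    intro z x
    unfold Hl skH cf
    rw [Fintype.sum_sum_type]
    simp only [Sum.elim_inl, Sum.elim_inr, Real.cos_zero, Real.sin_zero, one_mul, zero_mul,
      Finset.sum_const_zero, add_zero]
    rw [Finset.mul_sum]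
    exact Finset.sum_congr rfl fun p _ => by ring
  simp only [e]
  exact integral_inl (κ := Fin n)
    (fun g : Pair n → ℝ => Real.log (∑ x : Cfg n, Real.exp (skH n β g x)))

lemma integrable_log_cosh (s : ℝ) :
    Integrable (fun u : ℝ => Real.log (Real.cosh (s * u))) (gaussianReal 0 1) := by
  have hcont : Continuous (fun z : ℝ => Real.log (Real.cosh (s * z))) :=
    (Real.continuous_cosh.comp (continuous_const.mul continuous_id)).log
      fun z => (Real.cosh_pos _).ne'
  refine Gausscalc.integrable_one hcont (C := |s| + 1) fun u => ?_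
  have h1 : Real.cosh (s * u) ≤ Real.exp |s * u| := by
    rw [← Real.cosh_abs, Real.cosh_eq]
    have h2 : Real.exp (-|s * u|) ≤ Real.exp |s * u| :=
      Real.exp_le_exp.2 (by linarith [abs_nonneg (s * u)])
    linarith
  rw [abs_of_nonneg (Real.log_nonneg (Real.one_le_cosh _))]
  have h3 : Real.log (Real.cosh (s * u)) ≤ |s * u| := by
    rw [Real.log_le_iff_le_exp (Real.cosh_pos _)]
    exact h1
  rw [abs_mul] at h3
  have h4 : |u| ≤ Real.exp |u| := by linarith [Real.add_one_le_exp |u|]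
  have h5 : Real.exp |u| ≤ Real.exp ((|s| + 1) * |u|) := by
    apply Real.exp_le_exp.2
    nlinarith [abs_nonneg s, abs_nonneg u, mul_nonneg (abs_nonneg s) (abs_nonneg u)]
  have h6 : |s| * |u| ≤ |s| * Real.exp ((|s| + 1) * |u|) :=
    mul_le_mul_of_nonneg_left (h4.trans h5) (abs_nonneg s)
  have h7 := Real.exp_pos ((|s| + 1) * |u|)
  linarith

lemma mf_pi_div_two (β q : ℝ) : mf n β q (Real.pi / 2) =
    n * (Real.log 2 + ∫ z, Real.log (Real.cosh (β * Real.sqrt q * z)) ∂(gaussianReal 0 1)) := by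
  unfold mf
  have e : ∀ (z : Pair n ⊕ Fin n → ℝ), Real.log (∑ x : Cfg n,
      Real.exp (Hl (cf n β q (Real.pi / 2)) z x))
      = ∑ i : Fin n, (Real.log 2 + Real.log (Real.cosh (β * Real.sqrt q * z (Sum.inr i)))) := by
    intro z
    have e1 : ∀ x : Cfg n, Real.exp (Hl (cf n β q (Real.pi / 2)) z x)
        = ∏ i : Fin n, Real.exp (β * Real.sqrt q * z (Sum.inr i) * val (x i)) := by
      intro x
      rw [← Real.exp_sum]
      congr 1
      unfold Hl cf
      rw [Fintype.sum_sum_type]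
      simp only [Sum.elim_inl, Sum.elim_inr, Real.cos_pi_div_two, Real.sin_pi_div_two, one_mul,
        zero_mul, Finset.sum_const_zero, zero_add]
      exact Finset.sum_congr rfl fun i _ => by ring
    simp only [e1]
    have e2 : ∑ x : Cfg n, ∏ i : Fin n, Real.exp (β * Real.sqrt q * z (Sum.inr i) * val (x i))
        = ∏ i : Fin n, ∑ s : ℤˣ, Real.exp (β * Real.sqrt q * z (Sum.inr i) * val s) := by
      rw [Finset.prod_univ_sum, Fintype.piFinset_univ]
    rw [e2]
    have e3 : ∀ i : Fin n, ∑ s : ℤˣ, Real.exp (β * Real.sqrt q * z (Sum.inr i) * val s)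
        = 2 * Real.cosh (β * Real.sqrt q * z (Sum.inr i)) := by
      intro i
      rw [sum_spin, val_one, val_neg_one, Real.cosh_eq]
      ring_nf
    simp only [e3]
    rw [Real.log_prod (fun i _ => mul_ne_zero two_ne_zero (Real.cosh_pos _).ne')]
    exact Finset.sum_congr rfl fun i _ =>
      Real.log_mul two_ne_zero (Real.cosh_pos _).ne'
  simp only [e]
  rw [integral_inr (ι := Pair n) (fun g : Fin n → ℝ =>
    ∑ i : Fin n, (Real.log 2 + Real.log (Real.cosh (β * Real.sqrt q * g i))))]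
  have hev : ∀ i : Fin n, MeasurePreserving (Function.eval i) (stdG (Fin n)) (gaussianReal 0 1) :=
    fun i => measurePreserving_eval (fun _ : Fin n => gaussianReal 0 1) i
  have hi1 : ∀ i : Fin n, Integrable (fun g : Fin n → ℝ =>
      Real.log (Real.cosh (β * Real.sqrt q * g i))) (stdG (Fin n)) :=
    fun i => (hev i).integrable_comp_of_integrable (integrable_log_cosh (β * Real.sqrt q))
  have hi3 : ∀ i : Fin n, Integrable (fun g : Fin n → ℝ => Real.log 2 +
      Real.log (Real.cosh (β * Real.sqrt q * g i))) (stdG (Fin n)) :=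
    fun i => (integrable_const _).add (hi1 i)
  rw [integral_finsetSum _ fun i _ => hi3 i]
  have hi2 : ∀ i : Fin n, ∫ g : Fin n → ℝ, (Real.log 2 +
      Real.log (Real.cosh (β * Real.sqrt q * g i))) ∂(stdG (Fin n))
      = Real.log 2 + ∫ z, Real.log (Real.cosh (β * Real.sqrt q * z)) ∂(gaussianReal 0 1) := by
    intro i
    rw [integral_add (integrable_const _) (hi1 i)]
    congr 1
    · simp
    · rw [← (hev i).map_eq, integral_map (hev i).measurable.aemeasurable
        (by rw [(hev i).map_eq]; exact (integrable_log_cosh _).aestronglyMeasurable)]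
  simp only [hi2, Finset.sum_const, Finset.card_univ, Fintype.card_fin, nsmul_eq_mul]

end Guerra

open Guerra Interp in
theorem guerra (n : ℕ) (hn : n ≠ 0) (β q : ℝ) (hβ : 0 ≤ β) (hq0 : 0 ≤ q) (hq1 : q ≤ 1) :
    freeE n β ≤ n * (Real.log 2 + β ^ 2 * (1 - q) ^ 2 / 4 +
      ∫ z, Real.log (Real.cosh (β * Real.sqrt q * z)) ∂(gaussianReal 0 1)) := by
  classical
  have hd : ∀ φ, HasDerivAt (mf n β q) (∫ z, ∑ k, (avg (Hl (cf n β q φ) z)
      (fun x => cf n β q φ k x * cf' n β q φ k x)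
        - avg (Hl (cf n β q φ) z) (cf n β q φ k) * avg (Hl (cf n β q φ) z) (cf' n β q φ k))
        ∂(stdG (Pair n ⊕ Fin n))) φ :=
    fun φ => hasDerivAt_free (cf n β q) (cf' n β q) (hasDerivAt_cf β q) _ (abs_cf' β q) φ
  -- the corrected free energy is nondecreasing
  set κ := n * β ^ 2 / 2 * (1 - q) ^ 2 with hκ
  have hF : ∀ φ, HasDerivAt (fun φ => mf n β q φ + κ * (Real.sin φ ^ 2 / 2))
      ((∫ z, ∑ k, (avg (Hl (cf n β q φ) z)
      (fun x => cf n β q φ k x * cf' n β q φ k x)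
        - avg (Hl (cf n β q φ) z) (cf n β q φ k) * avg (Hl (cf n β q φ) z) (cf' n β q φ k))
        ∂(stdG (Pair n ⊕ Fin n))) + κ * (Real.sin φ * Real.cos φ)) φ := by
    intro φ
    have h2 := (((Real.hasDerivAt_sin φ).pow 2).div_const 2).const_mul κ
    refine ((hd φ).add h2).congr_deriv ?_
    push_cast
    ring
  have hmono : MonotoneOn (fun φ => mf n β q φ + κ * (Real.sin φ ^ 2 / 2))
      (Set.Icc 0 (Real.pi / 2)) := by
    refine monotoneOn_of_deriv_nonneg (convex_Icc _ _)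
      (fun φ _ => (hF φ).continuousAt.continuousWithinAt)
      (fun φ _ => (hF φ).differentiableAt.differentiableWithinAt) ?_
    intro φ hφ
    rw [interior_Icc] at hφ
    rw [(hF φ).deriv]
    have hs : 0 ≤ Real.sin φ := Real.sin_nonneg_of_nonneg_of_le_pi hφ.1.le
      (by linarith [hφ.2, Real.pi_pos])
    have hc : 0 ≤ Real.cos φ := Real.cos_nonneg_of_mem_Icc
      ⟨by linarith [hφ.1, Real.pi_pos], hφ.2.le⟩
    have hsc : 0 ≤ Real.sin φ * Real.cos φ := mul_nonneg hs hc
    have hint : Integrable (fun z : Pair n ⊕ Fin n → ℝ => ∑ k, (avg (Hl (cf n β q φ) z)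
      (fun x => cf n β q φ k x * cf' n β q φ k x)
        - avg (Hl (cf n β q φ) z) (cf n β q φ k) * avg (Hl (cf n β q φ) z) (cf' n β q φ k)))
        (stdG (Pair n ⊕ Fin n)) := by
      refine integrable_finsetSum _ fun k _ => ?_
      have h1 : Continuous (fun z => avg (Hl (cf n β q φ) z)
          (fun x => cf n β q φ k x * cf' n β q φ k x)
          - avg (Hl (cf n β q φ) z) (cf n β q φ k) * avg (Hl (cf n β q φ) z) (cf' n β q φ k)) :=
        (continuous_avg_Hl _ _).sub ((continuous_avg_Hl _ _).mul (continuous_avg_Hl _ _))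
      have h2 : EG (fun z => - (avg (Hl (cf n β q φ) z) (cf n β q φ k) *
          avg (Hl (cf n β q φ) z) (cf' n β q φ k))) :=
        ((EG_avg_Hl _ _).mul (EG_avg_Hl _ _)).mono fun z => by rw [abs_neg]
      have h3 := (EG_avg_Hl (cf n β q φ) (fun x => cf n β q φ k x * cf' n β q φ k x)).add h2
      simp only [← sub_eq_add_neg] at h3
      exact h3.integrable h1
    have hle := integral_mono (integrable_const (-(Real.sin φ * Real.cos φ) * κ)) hint
      fun z => deriv_lower β q φ hn hq0 (Hl (cf n β q φ) z) hsc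
    simp only [integral_const, probReal_univ, one_smul] at hle
    linarith
  have hfin := hmono (Set.left_mem_Icc.2 (by positivity)) (Set.right_mem_Icc.2 (by positivity))
    (by positivity : (0 : ℝ) ≤ Real.pi / 2)
  simp only [Real.sin_zero, Real.sin_pi_div_two, mf_zero, mf_pi_div_two] at hfin
  have e : (n : ℝ) * (Real.log 2 + ∫ z, Real.log (Real.cosh (β * Real.sqrt q * z))
      ∂(gaussianReal 0 1)) + κ * (1 ^ 2 / 2) = n * (Real.log 2 + β ^ 2 * (1 - q) ^ 2 / 4 +
      ∫ z, Real.log (Real.cosh (β * Real.sqrt q * z)) ∂(gaussianReal 0 1)) := by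
    rw [hκ]; ring
  rw [← e]
  simpa using hfin

end Vale.Agent.P150.Slow
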