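import Vale.Agent.P150.Slow.Defs

/-!
P150 / Slow: Gaussian interpolation for Hamiltonians which are linear in the disorder
(used by GUERRA, may be used by TEMP).
-/

namespace Vale.Agent.P150.Slow.Interp

open MeasureTheory ProbabilityTheory
open scoped BigOperators

variable {n : ℕ} {ι : Type*} [Fintype ι]

/-- Hamiltonian linear in the disorder. -/
noncomputable def Hl (c : ι → Cfg n → ℝ) (z : ι → ℝ) (x : Cfg n) : ℝ := ∑ k, c k x * z k

/-- `avg` with unnormalised weights -/
lemma avg_eq_div (H f : Cfg n → ℝ) :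
    avg H f = (∑ x, Real.exp (H x) * f x) / ∑ x, Real.exp (H x) := by
  unfold avg gibbs
  rw [Finset.sum_div]
  exact Finset.sum_congr rfl fun x _ => by ring

lemma hasDerivAt_logsum (H : ℝ → Cfg n → ℝ) (H' : Cfg n → ℝ) (u : ℝ)
    (h : ∀ x, HasDerivAt (fun u => H u x) (H' x) u) :
    HasDerivAt (fun u => Real.log (∑ x, Real.exp (H u x))) (avg (H u) H') u := by
  have h1 : HasDerivAt (fun u => ∑ x, Real.exp (H u x)) (∑ x, Real.exp (H u x) * H' x) u :=
    HasDerivAt.fun_sum fun x _ => (h x).exp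
  rw [avg_eq_div]
  exact h1.log (Z_pos (H u)).ne'

lemma hasDerivAt_avg (H : ℝ → Cfg n → ℝ) (H' : Cfg n → ℝ) (u : ℝ)
    (h : ∀ x, HasDerivAt (fun u => H u x) (H' x) u) (f : Cfg n → ℝ) :
    HasDerivAt (fun u => avg (H u) f)
      (avg (H u) (fun x => H' x * f x) - avg (H u) H' * avg (H u) f) u := by
  have h1 : HasDerivAt (fun u => ∑ x, Real.exp (H u x)) (∑ x, Real.exp (H u x) * H' x) u :=
    HasDerivAt.fun_sum fun x _ => (h x).exp
  have h2 : HasDerivAt (fun u => ∑ x, Real.exp (H u x) * f x)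
      (∑ x, Real.exp (H u x) * H' x * f x) u :=
    HasDerivAt.fun_sum fun x _ => (h x).exp.mul_const (f x)
  have hZ := (Z_pos (H u)).ne'
  simp only [avg_eq_div]
  refine (h2.fun_div h1 hZ).congr_deriv ?_
  field_simp

lemma abs_avg_le (H f : Cfg n → ℝ) : |avg H f| ≤ ∑ x, |f x| := by
  unfold avg
  refine (Finset.abs_sum_le_sum_abs _ _).trans (Finset.sum_le_sum fun x _ => ?_)
  rw [abs_mul, abs_of_nonneg (gibbs_nonneg H x)]
  have h1 : gibbs H x ≤ 1 := by
    rw [← sum_gibbs H]
    exact Finset.single_le_sum (fun y _ => gibbs_nonneg H y) (Finset.mem_univ x)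
  exact mul_le_of_le_one_left (abs_nonneg _) h1

lemma abs_avg_le_sup (H f : Cfg n → ℝ) {B : ℝ} (hB : ∀ x, |f x| ≤ B) : |avg H f| ≤ B := by
  unfold avg
  calc |∑ x, gibbs H x * f x| ≤ ∑ x, |gibbs H x * f x| := Finset.abs_sum_le_sum_abs _ _
    _ ≤ ∑ x, gibbs H x * B := Finset.sum_le_sum fun x _ => by
        rw [abs_mul, abs_of_nonneg (gibbs_nonneg H x)]
        exact mul_le_mul_of_nonneg_left (hB x) (gibbs_nonneg H x)
    _ = B := by rw [← Finset.sum_mul, sum_gibbs, one_mul]

lemma continuous_Hl (c : ι → Cfg n → ℝ) (x : Cfg n) : Continuous (fun z => Hl c z x) := by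
  unfold Hl
  fun_prop

lemma continuous_avg_Hl (c : ι → Cfg n → ℝ) (f : Cfg n → ℝ) :
    Continuous (fun z => avg (Hl c z) f) := by
  simp only [avg_eq_div]
  refine Continuous.div ?_ ?_ fun z => (Z_pos (Hl c z)).ne'
  · exact continuous_finsetSum _ fun x _ => (continuous_Hl c x).rexp.mul continuous_const
  · exact continuous_finsetSum _ fun x _ => (continuous_Hl c x).rexp

lemma EG_avg_Hl (c : ι → Cfg n → ℝ) (f : Cfg n → ℝ) : EG (fun z => avg (Hl c z) f) :=
  (EG.const (∑ x, |f x|)).mono fun _ => (abs_avg_le _ _).trans (le_abs_self _)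

lemma continuous_log_Hl (c : ι → Cfg n → ℝ) :
    Continuous (fun z => Real.log (∑ x, Real.exp (Hl c z x))) :=
  (continuous_finsetSum _ fun x _ => (continuous_Hl c x).rexp).log fun z => (Z_pos (Hl c z)).ne'

lemma EG_log_Hl (c : ι → Cfg n → ℝ) :
    EG (fun z : ι → ℝ => Real.log (∑ x, Real.exp (Hl c z x))) := by
  have h1 : EG (fun z : ι → ℝ => ∑ x : Cfg n, Real.exp (Hl c z x)) :=
    EG.sum _ fun x _ => EG.exp_lin _
  have h2 : EG (fun z : ι → ℝ => Real.exp (- Hl c z (fun _ => 1))) := by
    simp only [Hl, ← Finset.sum_neg_distrib, ← neg_mul]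
    exact EG.exp_lin _
  refine (h1.add h2).mono fun z => ?_
  have hZ := Z_pos (Hl c z)
  have he := Real.exp_pos (- Hl c z (fun _ => 1))
  rw [abs_of_pos (add_pos hZ he), abs_le]
  constructor
  · have h3 : Hl c z (fun _ => 1) ≤ Real.log (∑ x : Cfg n, Real.exp (Hl c z x)) := by
      rw [Real.le_log_iff_exp_le hZ]
      exact Finset.single_le_sum (f := fun x => Real.exp (Hl c z x))
        (fun _ _ => (Real.exp_pos _).le) (Finset.mem_univ _)
    have h4 := Real.add_one_le_exp (- Hl c z (fun _ => 1))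
    linarith
  · have := Real.log_le_sub_one_of_pos hZ
    linarith

/-- Gaussian integration by parts for Gibbs averages. -/
lemma ibp_avg [DecidableEq ι] (c : ι → Cfg n → ℝ) (f : Cfg n → ℝ) (k : ι) :
    ∫ z, z k * avg (Hl c z) f ∂(stdG ι) =
      ∫ z, (avg (Hl c z) (fun x => c k x * f x) - avg (Hl c z) (c k) * avg (Hl c z) f)
        ∂(stdG ι) := by
  refine gauss_ibp k (fun z => avg (Hl c z) f) _ (continuous_avg_Hl c f) ?_ ?_
    (EG_avg_Hl c f) ?_
  · exact (continuous_avg_Hl c _).sub ((continuous_avg_Hl c _).mul (continuous_avg_Hl c _))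
  · intro z
    have h := hasDerivAt_avg (fun u => Hl c (Function.update z k u)) (c k) (z k) (fun x => by
      have e : (fun u : ℝ => Hl c (Function.update z k u) x) =
          fun u => c k x * u + ∑ j ∈ Finset.univ.erase k, c j x * z j := by
        funext u
        unfold Hl
        rw [← Finset.add_sum_erase _ _ (Finset.mem_univ k), Function.update_self]
        congr 1
        refine Finset.sum_congr rfl fun j hj => ?_
        rw [Function.update_of_ne (Finset.ne_of_mem_erase hj)]
      rw [e]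
      have := ((hasDerivAt_id (z k)).const_mul (c k x)).add_const
        (∑ j ∈ Finset.univ.erase k, c j x * z j)
      simpa using this) f
    simpa only [Function.update_eq_self] using h
  · have h1 : EG (fun z => - (avg (Hl c z) (c k) * avg (Hl c z) f)) :=
      ((EG_avg_Hl c (c k)).mul (EG_avg_Hl c f)).mono fun z => by rw [abs_neg]
    have h2 := (EG_avg_Hl c (fun x => c k x * f x)).add h1
    simpa only [sub_eq_add_neg] using h2

/-- Derivative of the mean free energy along a path of linear Hamiltonians. -/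
theorem hasDerivAt_free [DecidableEq ι] (c c' : ℝ → ι → Cfg n → ℝ)
    (hc : ∀ s k x, HasDerivAt (fun s => c s k x) (c' s k x) s)
    (K : ℝ) (hK : ∀ s k x, |c' s k x| ≤ K) (s : ℝ) :
    HasDerivAt (fun s => ∫ z, Real.log (∑ x, Real.exp (Hl (c s) z x)) ∂(stdG ι))
      (∫ z, ∑ k, (avg (Hl (c s) z) (fun x => c s k x * c' s k x)
        - avg (Hl (c s) z) (c s k) * avg (Hl (c s) z) (c' s k)) ∂(stdG ι)) s := by
  have hK0 : 0 ≤ K ∨ IsEmpty ι := by
    by_cases h : IsEmpty ι
    · exact Or.inr h
    · rw [not_isEmpty_iff] at h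
      exact Or.inl ((abs_nonneg _).trans (hK 0 (Classical.choice h) (fun _ => 1)))
  have hcont' : ∀ s, Continuous (fun z => avg (Hl (c s) z) (fun x => ∑ k, c' s k x * z k)) := by
    intro s
    have : (fun z : ι → ℝ => avg (Hl (c s) z) (fun x => ∑ k, c' s k x * z k))
        = fun z => ∑ k, z k * avg (Hl (c s) z) (c' s k) := by
      funext z
      rw [avg_sum Finset.univ (Hl (c s) z) (fun k x => c' s k x * z k)]
      refine Finset.sum_congr rfl fun k _ => ?_
      rw [← avg_const_mul]
      congr 1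
      funext x
      ring
    rw [this]
    exact continuous_finsetSum _ fun k _ => (continuous_apply k).mul (continuous_avg_Hl _ _)
  have hmain := hasDerivAt_integral_stdG
    (F := fun s z => Real.log (∑ x, Real.exp (Hl (c s) z x)))
    (F' := fun s z => avg (Hl (c s) z) (fun x => ∑ k, c' s k x * z k))
    (fun s => continuous_log_Hl (c s)) hcont'
    (fun s z => hasDerivAt_logsum (fun s => Hl (c s) z) _ s fun x => by
      unfold Hl
      exact HasDerivAt.fun_sum fun k _ => (hc s k x).mul_const (z k))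
    (fun s => EG_log_Hl (c s))
    (fun S => ⟨|K| + 1, fun s _ z => by
      have hs : 0 ≤ ∑ k, |z k| := Finset.sum_nonneg fun k _ => abs_nonneg _
      have h1 : |avg (Hl (c s) z) (fun x => ∑ k, c' s k x * z k)| ≤ |K| * ∑ k, |z k| := by
        refine abs_avg_le_sup _ _ fun x => ?_
        refine (Finset.abs_sum_le_sum_abs _ _).trans ?_
        rw [Finset.mul_sum]
        refine Finset.sum_le_sum fun k _ => ?_
        rw [abs_mul]
        exact mul_le_mul_of_nonneg_right ((hK s k x).trans (le_abs_self K)) (abs_nonneg _)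
      have h2 : ∑ k, |z k| ≤ Real.exp (∑ k, |z k|) := by
        linarith [Real.add_one_le_exp (∑ k, |z k|)]
      have h3 : Real.exp (∑ k, |z k|) ≤ Real.exp ((|K| + 1) * ∑ k, |z k|) := by
        apply Real.exp_le_exp.2
        nlinarith [abs_nonneg K]
      have h4 : |K| * ∑ k, |z k| ≤ |K| * Real.exp ((|K| + 1) * ∑ k, |z k|) :=
        mul_le_mul_of_nonneg_left (h2.trans h3) (abs_nonneg K)
      have h5 := Real.exp_pos ((|K| + 1) * ∑ k, |z k|)
      refine h1.trans (h4.trans ?_)
      nlinarith⟩) s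
  refine hmain.congr_deriv ?_
  have e1 : ∀ z : ι → ℝ, avg (Hl (c s) z) (fun x => ∑ k, c' s k x * z k)
      = ∑ k, z k * avg (Hl (c s) z) (c' s k) := by
    intro z
    rw [avg_sum Finset.univ (Hl (c s) z) (fun k x => c' s k x * z k)]
    refine Finset.sum_congr rfl fun k _ => ?_
    rw [← avg_const_mul]
    congr 1
    funext x
    ring
  simp only [e1]
  rw [integral_finsetSum, integral_finsetSum]
  · exact Finset.sum_congr rfl fun k _ => ibp_avg (c s) (c' s k) k
  · intro k _
    have h1 : Continuous (fun z => avg (Hl (c s) z) (fun x => c s k x * c' s k x)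
        - avg (Hl (c s) z) (c s k) * avg (Hl (c s) z) (c' s k)) :=
      (continuous_avg_Hl _ _).sub ((continuous_avg_Hl _ _).mul (continuous_avg_Hl _ _))
    have h2 : EG (fun z => - (avg (Hl (c s) z) (c s k) * avg (Hl (c s) z) (c' s k))) :=
      ((EG_avg_Hl (c s) (c s k)).mul (EG_avg_Hl (c s) (c' s k))).mono fun z => by rw [abs_neg]
    have h3 := (EG_avg_Hl (c s) (fun x => c s k x * c' s k x)).add h2
    simp only [← sub_eq_add_neg] at h3
    exact h3.integrable h1
  · intro k _
    exact ((EG.coord k).mul (EG_avg_Hl (c s) (c' s k))).integrable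
      ((continuous_apply k).mul (continuous_avg_Hl _ _))

end Vale.Agent.P150.Slow.Interp
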