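import Vale.Agent.P150.Slow.Defs

/-!
P150 / Slow module RSNUM: for `β > 1` the RS bound beats the annealed value for some `q`.

`log cosh y ≤ y²/2 - y⁴/12 + y⁶/45` for all real `y` (calculus), and `E z² = 1, E z⁴ = 3, E z⁶ = 15`, so
`RS - annealed ≤ β²(q²-2q)/4 + β² q/2 - β⁴ q²/4 + β⁶ q³/3 = -β²(β²-1) q²/4 + β⁶ q³/3 < 0` for small `q`.
-/

namespace Vale.Agent.P150.Slow

open MeasureTheory ProbabilityTheory

namespace Rsnum

noncomputable section

/-- `tanh` as a quotient. -/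
def th (y : ℝ) : ℝ := Real.sinh y / Real.cosh y

lemma th_zero : th 0 = 0 := by simp [th]

lemma hasDerivAt_th (y : ℝ) : HasDerivAt th (1 - th y ^ 2) y := by
  have hc := (Real.cosh_pos y).ne'
  have h := (Real.hasDerivAt_sinh y).div (Real.hasDerivAt_cosh y) hc
  refine h.congr_deriv ?_
  unfold th
  field_simp

/-- A function with nonnegative derivative on `[0,∞)` vanishing at `0` is nonnegative there. -/
lemma nonneg_of_deriv {f f' : ℝ → ℝ} (hd : ∀ y, HasDerivAt f (f' y) y) (h0 : f 0 = 0)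
    (hn : ∀ y, 0 ≤ y → 0 ≤ f' y) (y : ℝ) (hy : 0 ≤ y) : 0 ≤ f y := by
  have hm : MonotoneOn f (Set.Ici 0) := by
    refine monotoneOn_of_deriv_nonneg (convex_Ici 0)
      (fun t _ => (hd t).continuousAt.continuousWithinAt)
      (fun t _ => (hd t).differentiableAt.differentiableWithinAt) ?_
    intro t ht
    rw [(hd t).deriv]
    exact hn t (by simpa using interior_subset ht)
  have := hm (Set.mem_Ici.2 le_rfl) (Set.mem_Ici.2 hy) hy
  rwa [h0] at this

lemma th_nonneg (y : ℝ) (hy : 0 ≤ y) : 0 ≤ th y :=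
  div_nonneg (Real.sinh_nonneg_iff.2 hy) (Real.cosh_pos y).le

lemma th_le (y : ℝ) (hy : 0 ≤ y) : th y ≤ y := by
  have h := nonneg_of_deriv (f := fun y => y - th y) (f' := fun y => th y ^ 2)
    (fun t => ((hasDerivAt_id t).sub (hasDerivAt_th t)).congr_deriv (by ring))
    (by simp [th_zero]) (fun t _ => sq_nonneg _) y hy
  linarith

lemma le_th (y : ℝ) (hy : 0 ≤ y) : y - y ^ 3 / 3 ≤ th y := by
  have hd : ∀ t, HasDerivAt (fun y => th y - y + y ^ 3 / 3) (t ^ 2 - th t ^ 2) t := by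
    intro t
    have := ((hasDerivAt_th t).sub (hasDerivAt_id t)).add ((hasDerivAt_pow 3 t).div_const 3)
    refine this.congr_deriv ?_
    norm_num
    ring
  have h := nonneg_of_deriv hd (by simp [th_zero]) (fun t ht => by
    have h1 := th_nonneg t ht
    have h2 := th_le t ht
    nlinarith) y hy
  linarith

lemma th_le' (y : ℝ) (hy : 0 ≤ y) : th y ≤ y - y ^ 3 / 3 + 2 * y ^ 5 / 15 := by
  have hd : ∀ t, HasDerivAt (fun y => y - y ^ 3 / 3 + 2 * y ^ 5 / 15 - th y)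
      (th t ^ 2 - (t ^ 2 - 2 * t ^ 4 / 3)) t := by
    intro t
    have := (((hasDerivAt_id t).sub ((hasDerivAt_pow 3 t).div_const 3)).add
      (((hasDerivAt_pow 5 t).const_mul 2).div_const 15)).sub (hasDerivAt_th t)
    refine this.congr_deriv ?_
    norm_num
    ring
  have h := nonneg_of_deriv hd (by simp [th_zero]) (fun t ht => by
    have h1 := le_th t ht
    have h2 := th_nonneg t ht
    rcases le_total (t ^ 2) 3 with h3 | h3
    · have h4 : 0 ≤ t - t ^ 3 / 3 := by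
        have : t - t ^ 3 / 3 = t * (1 - t ^ 2 / 3) := by ring
        rw [this]; exact mul_nonneg ht (by linarith)
      have h5 : (t - t ^ 3 / 3) ^ 2 ≤ th t ^ 2 := by
        exact pow_le_pow_left₀ h4 h1 2
      have h6 : (t - t ^ 3 / 3) ^ 2 = t ^ 2 - 2 * t ^ 4 / 3 + t ^ 6 / 9 := by ring
      have h7 : 0 ≤ t ^ 6 := by positivity
      nlinarith
    · have h4 : t ^ 2 - 2 * t ^ 4 / 3 ≤ 0 := by nlinarith
      have h5 : 0 ≤ th t ^ 2 := sq_nonneg _
      linarith) y hy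
  linarith

lemma log_cosh_le_aux (y : ℝ) (hy : 0 ≤ y) :
    Real.log (Real.cosh y) ≤ y ^ 2 / 2 - y ^ 4 / 12 + y ^ 6 / 45 := by
  have hd : ∀ t, HasDerivAt (fun y => y ^ 2 / 2 - y ^ 4 / 12 + y ^ 6 / 45 - Real.log (Real.cosh y))
      (t - t ^ 3 / 3 + 2 * t ^ 5 / 15 - th t) t := by
    intro t
    have hl := (Real.hasDerivAt_cosh t).log (Real.cosh_pos t).ne'
    have := ((((hasDerivAt_pow 2 t).div_const 2).sub ((hasDerivAt_pow 4 t).div_const 12)).add
      ((hasDerivAt_pow 6 t).div_const 45)).sub hl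
    refine this.congr_deriv ?_
    unfold th
    norm_num
    ring
  have h := nonneg_of_deriv hd (by simp) (fun t ht => by
    have := th_le' t ht
    linarith) y hy
  linarith

lemma log_cosh_le (y : ℝ) :
    Real.log (Real.cosh y) ≤ y ^ 2 / 2 - y ^ 4 / 12 + y ^ 6 / 45 := by
  have h := log_cosh_le_aux |y| (abs_nonneg y)
  rw [Real.cosh_abs, Even.pow_abs (by decide : Even 2), Even.pow_abs (by decide : Even 4),
    Even.pow_abs (by decide : Even 6)] at h
  exact h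

lemma pow_bound (n : ℕ) (c : ℝ) (hc : 0 ≤ c) (u : ℝ) :
    |c * u ^ n| ≤ (c * (n.factorial : ℝ) + 1) * Real.exp ((c * (n.factorial : ℝ) + 1) * |u|) := by
  have h1 := Real.pow_div_factorial_le_exp |u| (abs_nonneg u) n
  have hf : (0 : ℝ) < n.factorial := by exact_mod_cast n.factorial_pos
  rw [div_le_iff₀ hf] at h1
  have h2 : Real.exp |u| ≤ Real.exp ((c * (n.factorial : ℝ) + 1) * |u|) := by
    apply Real.exp_le_exp.2
    have : 0 ≤ c * (n.factorial : ℝ) * |u| := by positivity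
    linarith
  rw [abs_mul, abs_of_nonneg hc, abs_pow]
  calc c * |u| ^ n ≤ c * (Real.exp |u| * n.factorial) := mul_le_mul_of_nonneg_left h1 hc
    _ = (c * (n.factorial : ℝ)) * Real.exp |u| := by ring
    _ ≤ (c * (n.factorial : ℝ) + 1) * Real.exp ((c * (n.factorial : ℝ) + 1) * |u|) :=
        mul_le_mul (by linarith) h2 (Real.exp_pos _).le (by positivity)

lemma integrable_pow (n : ℕ) : Integrable (fun u : ℝ => u ^ n) (gaussianReal 0 1) := by
  have h := Gausscalc.integrable_one (f := fun u : ℝ => 1 * u ^ n) (by fun_prop)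
    (pow_bound n 1 zero_le_one)
  simpa using h

lemma moment_succ (n : ℕ) :
    ∫ u, u ^ (n + 2) ∂(gaussianReal 0 1) = (n + 1) * ∫ u, u ^ n ∂(gaussianReal 0 1) := by
  have hd : ∀ u : ℝ, HasDerivAt (fun u : ℝ => 1 * u ^ (n + 1)) (((n : ℝ) + 1) * u ^ n) u := by
    intro u
    have := (hasDerivAt_pow (n + 1) u).const_mul 1
    refine this.congr_deriv ?_
    push_cast
    simp
  have h := Gausscalc.ibp_one (f := fun u : ℝ => 1 * u ^ (n + 1))
    (f' := fun u : ℝ => ((n : ℝ) + 1) * u ^ n) (by fun_prop) (by fun_prop) hd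
    (pow_bound (n + 1) 1 zero_le_one) (pow_bound n ((n : ℝ) + 1) (by positivity))
  rw [integral_const_mul] at h
  rw [← h]
  congr 1
  funext u
  ring

lemma m0 : ∫ u, u ^ 0 ∂(gaussianReal 0 1) = (1 : ℝ) := by simp

lemma m2 : ∫ u, u ^ 2 ∂(gaussianReal 0 1) = (1 : ℝ) := by
  have := moment_succ 0
  rw [m0] at this
  norm_num at this
  exact this

lemma m4 : ∫ u, u ^ 4 ∂(gaussianReal 0 1) = (3 : ℝ) := by
  have := moment_succ 2
  rw [m2] at this
  norm_num at this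
  exact this

lemma m6 : ∫ u, u ^ 6 ∂(gaussianReal 0 1) = (15 : ℝ) := by
  have := moment_succ 4
  rw [m4] at this
  norm_num at this
  exact this

lemma integral_log_cosh_le (c : ℝ) :
    ∫ z, Real.log (Real.cosh (c * z)) ∂(gaussianReal 0 1)
      ≤ c ^ 2 / 2 - c ^ 4 / 4 + c ^ 6 / 3 := by
  have i2 := integrable_pow 2
  have i4 := integrable_pow 4
  have i6 := integrable_pow 6
  have hi : Integrable (fun z : ℝ => c ^ 2 / 2 * z ^ 2 - c ^ 4 / 12 * z ^ 4 + c ^ 6 / 45 * z ^ 6)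
      (gaussianReal 0 1) :=
    ((i2.const_mul _).sub (i4.const_mul _)).add (i6.const_mul _)
  have hle : ∫ z, Real.log (Real.cosh (c * z)) ∂(gaussianReal 0 1)
      ≤ ∫ z, (c ^ 2 / 2 * z ^ 2 - c ^ 4 / 12 * z ^ 4 + c ^ 6 / 45 * z ^ 6) ∂(gaussianReal 0 1) := by
    refine integral_mono_of_nonneg (Filter.Eventually.of_forall fun z => ?_) hi
      (Filter.Eventually.of_forall fun z => ?_)
    · exact Real.log_nonneg (Real.one_le_cosh _)
    · have := log_cosh_le (c * z)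
      simp only
      calc Real.log (Real.cosh (c * z)) ≤ (c * z) ^ 2 / 2 - (c * z) ^ 4 / 12 + (c * z) ^ 6 / 45 := this
        _ = c ^ 2 / 2 * z ^ 2 - c ^ 4 / 12 * z ^ 4 + c ^ 6 / 45 * z ^ 6 := by ring
  refine hle.trans (le_of_eq ?_)
  have e1 : ∫ z, (c ^ 2 / 2 * z ^ 2 - c ^ 4 / 12 * z ^ 4 + c ^ 6 / 45 * z ^ 6) ∂(gaussianReal 0 1)
      = (c ^ 2 / 2 * ∫ z, z ^ 2 ∂(gaussianReal 0 1)) - (c ^ 4 / 12 * ∫ z, z ^ 4 ∂(gaussianReal 0 1))
        + c ^ 6 / 45 * ∫ z, z ^ 6 ∂(gaussianReal 0 1) := by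
    have a1 : ∫ z, (c ^ 2 / 2 * z ^ 2 - c ^ 4 / 12 * z ^ 4 + c ^ 6 / 45 * z ^ 6)
        ∂(gaussianReal 0 1) = (∫ z, (c ^ 2 / 2 * z ^ 2 - c ^ 4 / 12 * z ^ 4) ∂(gaussianReal 0 1))
          + ∫ z, c ^ 6 / 45 * z ^ 6 ∂(gaussianReal 0 1) :=
      integral_add ((i2.const_mul _).sub (i4.const_mul _)) (i6.const_mul _)
    have a2 : ∫ z, (c ^ 2 / 2 * z ^ 2 - c ^ 4 / 12 * z ^ 4) ∂(gaussianReal 0 1)
        = (∫ z, c ^ 2 / 2 * z ^ 2 ∂(gaussianReal 0 1))
          - ∫ z, c ^ 4 / 12 * z ^ 4 ∂(gaussianReal 0 1) :=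
      integral_sub (i2.const_mul _) (i4.const_mul _)
    rw [a1, a2, integral_const_mul, integral_const_mul, integral_const_mul]
  rw [e1, m2, m4, m6]
  ring

end

end Rsnum

open Rsnum in
theorem rs_lt (β : ℝ) (hβ : 1 < β) : ∃ q : ℝ, 0 ≤ q ∧ q ≤ 1 ∧
    Real.log 2 + β ^ 2 * (1 - q) ^ 2 / 4 +
      ∫ z, Real.log (Real.cosh (β * Real.sqrt q * z)) ∂(gaussianReal 0 1)
      < Real.log 2 + β ^ 2 / 4 := by
  have hb : 0 < β := by linarith
  have hb2 : 1 < β ^ 2 := by nlinarith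
  have hb4 : 0 < β ^ 4 := by positivity
  set q : ℝ := (β ^ 2 - 1) / (2 * β ^ 4) with hq
  have hq0 : 0 < q := div_pos (by linarith) (by positivity)
  have hq1 : q ≤ 1 := by
    rw [hq, div_le_one (by positivity)]
    nlinarith [sq_nonneg (β ^ 2 - 1)]
  have hqb : β ^ 4 * q = (β ^ 2 - 1) / 2 := by
    rw [hq]; field_simp
  refine ⟨q, hq0.le, hq1, ?_⟩
  have h := integral_log_cosh_le (β * Real.sqrt q)
  have hs : Real.sqrt q ^ 2 = q := Real.sq_sqrt hq0.le
  have e2 : (β * Real.sqrt q) ^ 2 = β ^ 2 * q := by rw [mul_pow, hs]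
  have e4 : (β * Real.sqrt q) ^ 4 = β ^ 4 * q ^ 2 := by
    rw [show (β * Real.sqrt q) ^ 4 = ((β * Real.sqrt q) ^ 2) ^ 2 by ring, e2]; ring
  have e6 : (β * Real.sqrt q) ^ 6 = β ^ 6 * q ^ 3 := by
    rw [show (β * Real.sqrt q) ^ 6 = ((β * Real.sqrt q) ^ 2) ^ 3 by ring, e2]; ring
  rw [e2, e4, e6] at h
  have key : β ^ 6 * q ^ 3 = β ^ 2 * q ^ 2 * ((β ^ 2 - 1) / 2) := by
    rw [← hqb]; ring
  have hpos : 0 < β ^ 2 * q ^ 2 * (β ^ 2 - 1) :=
    mul_pos (by positivity) (by linarith)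
  rw [key] at h
  nlinarith

end Vale.Agent.P150.Slow
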