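import Vale.Agent.P150.Slow.Defs

/-!
P150 / Slow module TEMP: `d/dβ E log Z_n ≤ β n / 2`, i.e. `E log Z_n(β) - n β²/4` is nonincreasing on
`[0,∞)`.  (Differentiate under the integral, Gaussian integration by parts:
`d/dβ E log Z = (1/√n) ∑_p E[g_p ⟨x_i x_j⟩] = (β/n) ∑_p E(1 - ⟨x_i x_j⟩²) ≤ (β/n) n(n-1)/2`.)
`disorder n = stdG (Pair n)` by definition, so GaussCalc applies.
-/

namespace Vale.Agent.P150.Slow

open MeasureTheory ProbabilityTheory
open scoped BigOperators

namespace Temp

noncomputable section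

variable {n : ℕ}

/-- `x_i x_j`. -/
def sg (p : Pair n) (x : Cfg n) : ℝ := val (x p.1.1) * val (x p.1.2)

lemma sg_sq (p : Pair n) (x : Cfg n) : sg p x * sg p x = 1 := by
  unfold sg
  have h1 := val_mul_self (x p.1.1)
  have h2 := val_mul_self (x p.1.2)
  calc val (x p.1.1) * val (x p.1.2) * (val (x p.1.1) * val (x p.1.2))
      = (val (x p.1.1) * val (x p.1.1)) * (val (x p.1.2) * val (x p.1.2)) := by ring
    _ = 1 := by rw [h1, h2, one_mul]

lemma abs_sg (p : Pair n) (x : Cfg n) : |sg p x| = 1 := by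
  unfold sg
  rw [abs_mul, abs_val, abs_val, one_mul]

/-- exponent with prefactor `c`. -/
def hh (c : ℝ) (g : Pair n → ℝ) (x : Cfg n) : ℝ := c * ∑ p, g p * sg p x

lemma skH_eq (β : ℝ) (g : Pair n → ℝ) (x : Cfg n) :
    skH n β g x = hh (β / Real.sqrt n) g x := by
  unfold skH hh sg
  congr 1
  exact Finset.sum_congr rfl fun p _ => by ring

/-- Partition function. -/
def ZZ (c : ℝ) (g : Pair n → ℝ) : ℝ := ∑ x : Cfg n, Real.exp (hh c g x)

/-- Unnormalised `⟨σ_p⟩`. -/
def NN (c : ℝ) (g : Pair n → ℝ) (p : Pair n) : ℝ := ∑ x : Cfg n, sg p x * Real.exp (hh c g x)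

/-- `⟨σ_p⟩`. -/
def MM (c : ℝ) (g : Pair n → ℝ) (p : Pair n) : ℝ := NN c g p / ZZ c g

lemma ZZ_pos (c : ℝ) (g : Pair n → ℝ) : 0 < ZZ c g :=
  Finset.sum_pos (fun _ _ => Real.exp_pos _) Finset.univ_nonempty

lemma abs_NN_le (c : ℝ) (g : Pair n → ℝ) (p : Pair n) : |NN c g p| ≤ ZZ c g := by
  unfold NN ZZ
  refine (Finset.abs_sum_le_sum_abs _ _).trans (Finset.sum_le_sum fun x _ => ?_)
  rw [abs_mul, abs_sg, one_mul, abs_of_pos (Real.exp_pos _)]

lemma abs_MM_le (c : ℝ) (g : Pair n → ℝ) (p : Pair n) : |MM c g p| ≤ 1 := by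
  unfold MM
  rw [abs_div, abs_of_pos (ZZ_pos c g), div_le_one (ZZ_pos c g)]
  exact abs_NN_le c g p

lemma MM_sq_le (c : ℝ) (g : Pair n → ℝ) (p : Pair n) : MM c g p ^ 2 ≤ 1 := by
  have h := abs_MM_le c g p
  rw [← sq_abs]
  exact pow_le_one₀ (abs_nonneg _) h

lemma continuous_hh (c : ℝ) (x : Cfg n) : Continuous fun g : Pair n → ℝ => hh c g x := by
  unfold hh; fun_prop

lemma continuous_ZZ (c : ℝ) : Continuous fun g : Pair n → ℝ => ZZ c g := by
  unfold ZZ
  exact continuous_finsetSum _ fun x _ => Real.continuous_exp.comp (continuous_hh c x)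

lemma continuous_NN (c : ℝ) (p : Pair n) : Continuous fun g : Pair n → ℝ => NN c g p := by
  unfold NN
  exact continuous_finsetSum _ fun x _ =>
    continuous_const.mul (Real.continuous_exp.comp (continuous_hh c x))

lemma continuous_MM (c : ℝ) (p : Pair n) : Continuous fun g : Pair n → ℝ => MM c g p :=
  (continuous_NN c p).div (continuous_ZZ c) fun g => (ZZ_pos c g).ne'

lemma continuous_log (c : ℝ) : Continuous fun g : Pair n → ℝ => Real.log (ZZ c g) :=
  (continuous_ZZ c).log fun g => (ZZ_pos c g).ne'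

/-- derivative in `c`. -/
lemma hasDerivAt_logZ (c : ℝ) (g : Pair n → ℝ) :
    HasDerivAt (fun c => Real.log (ZZ c g)) (∑ p, g p * MM c g p) c := by
  have h1 : ∀ x : Cfg n, HasDerivAt (fun c => Real.exp (hh c g x))
      (Real.exp (hh c g x) * ∑ p, g p * sg p x) c := by
    intro x
    have h : HasDerivAt (fun c => hh c g x) (∑ p, g p * sg p x) c := by
      unfold hh
      simpa using (hasDerivAt_id c).mul_const (∑ p, g p * sg p x)
    exact h.exp
  have h2 : HasDerivAt (fun c => ZZ c g) (∑ x : Cfg n, Real.exp (hh c g x) * ∑ p, g p * sg p x) c := by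
    unfold ZZ
    exact HasDerivAt.fun_sum (fun x _ => h1 x)
  refine (h2.log (ZZ_pos c g).ne').congr_deriv ?_
  unfold MM NN
  rw [Finset.sum_div]
  simp only [Finset.sum_div, Finset.mul_sum]
  rw [Finset.sum_comm]
  exact Finset.sum_congr rfl fun p _ => Finset.sum_congr rfl fun x _ => by ring

lemma hasDerivAt_hh_update (c : ℝ) (g : Pair n → ℝ) (x : Cfg n) (p : Pair n) :
    HasDerivAt (fun t => hh c (Function.update g p t) x) (c * sg p x) (g p) := by
  have h1 : ∀ k, HasDerivAt (fun t => Function.update g p t k * sg k x)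
      (if k = p then sg p x else 0) (g p) := by
    intro k
    by_cases hk : k = p
    · subst hk
      simp only [Function.update_self, if_true]
      simpa using (hasDerivAt_id (g k)).mul_const (sg k x)
    · simp only [Function.update_of_ne hk, hk, if_false]
      exact hasDerivAt_const _ _
  have h2 : HasDerivAt (fun t => ∑ k, Function.update g p t k * sg k x) (sg p x) (g p) := by
    have := HasDerivAt.fun_sum (u := Finset.univ) (fun k _ => h1 k)
    simpa using this
  unfold hh
  exact h2.const_mul c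

/-- derivative of `⟨σ_p⟩` in `g_p`. -/
lemma hasDerivAt_MM (c : ℝ) (g : Pair n → ℝ) (p : Pair n) :
    HasDerivAt (fun t => MM c (Function.update g p t) p) (c * (1 - MM c g p ^ 2)) (g p) := by
  have e : Function.update g p (g p) = g := Function.update_eq_self p g
  have h1 : ∀ x : Cfg n, HasDerivAt (fun t => Real.exp (hh c (Function.update g p t) x))
      (Real.exp (hh c g x) * (c * sg p x)) (g p) := by
    intro x
    have h := (hasDerivAt_hh_update c g x p).exp
    simp only [e] at h
    exact h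
  have hZ : HasDerivAt (fun t => ZZ c (Function.update g p t)) (c * NN c g p) (g p) := by
    unfold ZZ NN
    refine (HasDerivAt.fun_sum (fun x _ => h1 x)).congr_deriv ?_
    rw [Finset.mul_sum]
    exact Finset.sum_congr rfl fun x _ => by ring
  have hN : HasDerivAt (fun t => NN c (Function.update g p t) p) (c * ZZ c g) (g p) := by
    unfold ZZ NN
    refine (HasDerivAt.fun_sum (fun x _ => (h1 x).const_mul (sg p x))).congr_deriv ?_
    rw [Finset.mul_sum]
    refine Finset.sum_congr rfl fun x _ => ?_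
    calc sg p x * (Real.exp (hh c g x) * (c * sg p x))
        = c * (sg p x * sg p x) * Real.exp (hh c g x) := by ring
      _ = c * Real.exp (hh c g x) := by rw [sg_sq, mul_one]
  have h := hN.div hZ (ZZ_pos c _).ne'
  simp only [e] at h
  refine h.congr_deriv ?_
  have hz := (ZZ_pos c g).ne'
  unfold MM
  field_simp

lemma abs_logZ_le (c : ℝ) (g : Pair n → ℝ) :
    |Real.log (ZZ c g)| ≤ n * Real.log 2 + |c| * ∑ p, |g p| := by
  have hT : 0 ≤ ∑ p, |g p| := Finset.sum_nonneg fun _ _ => abs_nonneg _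
  have hH : ∀ x : Cfg n, |hh c g x| ≤ |c| * ∑ p, |g p| := by
    intro x
    unfold hh
    rw [abs_mul]
    refine mul_le_mul_of_nonneg_left ?_ (abs_nonneg _)
    refine (Finset.abs_sum_le_sum_abs _ _).trans (Finset.sum_le_sum fun p _ => ?_)
    rw [abs_mul, abs_sg, mul_one]
  have hcard : (Finset.univ : Finset (Cfg n)).card = 2 ^ n := by
    rw [Finset.card_univ, Fintype.card_pi]
    simp
  have hup : ZZ c g ≤ 2 ^ n * Real.exp (|c| * ∑ p, |g p|) := by
    unfold ZZ
    calc ∑ x : Cfg n, Real.exp (hh c g x) ≤ ∑ _x : Cfg n, Real.exp (|c| * ∑ p, |g p|) :=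
          Finset.sum_le_sum fun x _ => Real.exp_le_exp.2 (abs_le.1 (hH x)).2
      _ = 2 ^ n * Real.exp (|c| * ∑ p, |g p|) := by
          rw [Finset.sum_const, hcard, nsmul_eq_mul]; push_cast; ring
  have hlo : 2 ^ n * Real.exp (-(|c| * ∑ p, |g p|)) ≤ ZZ c g := by
    unfold ZZ
    calc 2 ^ n * Real.exp (-(|c| * ∑ p, |g p|))
        = ∑ _x : Cfg n, Real.exp (-(|c| * ∑ p, |g p|)) := by
          rw [Finset.sum_const, hcard, nsmul_eq_mul]; push_cast; ring
      _ ≤ ∑ x : Cfg n, Real.exp (hh c g x) :=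
          Finset.sum_le_sum fun x _ => Real.exp_le_exp.2 (abs_le.1 (hH x)).1
  have h2 : (0 : ℝ) < 2 ^ n := by positivity
  have l1 : Real.log (ZZ c g) ≤ n * Real.log 2 + |c| * ∑ p, |g p| := by
    have := Real.log_le_log (ZZ_pos c g) hup
    rwa [Real.log_mul h2.ne' (Real.exp_pos _).ne', Real.log_exp, Real.log_pow] at this
  have l2 : n * Real.log 2 - |c| * ∑ p, |g p| ≤ Real.log (ZZ c g) := by
    have := Real.log_le_log (mul_pos h2 (Real.exp_pos _)) hlo
    rw [Real.log_mul h2.ne' (Real.exp_pos _).ne', Real.log_exp, Real.log_pow] at this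
    linarith
  have hl : 0 ≤ n * Real.log 2 := mul_nonneg (Nat.cast_nonneg n) (Real.log_nonneg (by norm_num))
  rw [abs_le]
  constructor <;> linarith

lemma EG_logZ (c : ℝ) : EG fun g : Pair n → ℝ => Real.log (ZZ c g) := by
  have h : EG fun g : Pair n → ℝ => n * Real.log 2 + |c| * ∑ p, |g p| :=
    (EG.const _).add ((EG.const _).mul (EG.sum _ fun p _ =>
      (EG.coord p).mono fun g => by rw [abs_abs]))
  exact h.mono fun g => (abs_logZ_le c g).trans (le_abs_self _)

lemma EG_MM (c : ℝ) (p : Pair n) : EG fun g : Pair n → ℝ => MM c g p :=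
  (EG.const 1).mono fun g => by rw [abs_one]; exact abs_MM_le c g p

lemma EG_dMM (c : ℝ) (p : Pair n) : EG fun g : Pair n → ℝ => c * (1 - MM c g p ^ 2) :=
  (EG.const c).mono fun g => by
    rw [abs_mul]
    have h1 := MM_sq_le c g p
    have h2 : |1 - MM c g p ^ 2| ≤ 1 := by
      rw [abs_le]; constructor <;> nlinarith [sq_nonneg (MM c g p)]
    calc |c| * |1 - MM c g p ^ 2| ≤ |c| * 1 := mul_le_mul_of_nonneg_left h2 (abs_nonneg _)
      _ = |c| := mul_one _

lemma freeE_eq (β : ℝ) :
    freeE n β = ∫ g, Real.log (ZZ (β / Real.sqrt n) g) ∂(stdG (Pair n)) := by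
  unfold freeE ZZ
  simp only [skH_eq]
  rfl

lemma card_pair_le : (Fintype.card (Pair n) : ℝ) ≤ (n : ℝ) ^ 2 / 2 := by
  classical
  have hsub : 2 * Fintype.card (Pair n) ≤ n ^ 2 := by
    have e : Fintype.card (Pair n)
        = (Finset.univ.filter fun p : Fin n × Fin n => p.1 < p.2).card := by
      rw [Fintype.card_subtype]
    have e' : (Finset.univ.filter fun p : Fin n × Fin n => p.1 < p.2).card
        = (Finset.univ.filter fun p : Fin n × Fin n => p.2 < p.1).card := by
      refine Finset.card_bij (fun p _ => (p.2, p.1)) ?_ ?_ ?_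
      · intro p hp; simpa using hp
      · rintro ⟨a, b⟩ _ ⟨c, d⟩ _ h
        simp only [Prod.mk.injEq] at h ⊢
        exact ⟨h.2, h.1⟩
      · rintro ⟨a, b⟩ hp
        exact ⟨(b, a), by simpa using hp, rfl⟩
    have hd : Disjoint (Finset.univ.filter fun p : Fin n × Fin n => p.1 < p.2)
        (Finset.univ.filter fun p : Fin n × Fin n => p.2 < p.1) := by
      rw [Finset.disjoint_filter]
      intro p _ h1 h2
      exact lt_asymm h1 h2
    have hu := Finset.card_le_univ ((Finset.univ.filter fun p : Fin n × Fin n => p.1 < p.2) ∪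
      (Finset.univ.filter fun p : Fin n × Fin n => p.2 < p.1))
    rw [Finset.card_union_of_disjoint hd, ← e', Fintype.card_prod, Fintype.card_fin] at hu
    rw [e]
    nlinarith
  have h2 : (2 : ℝ) * (Fintype.card (Pair n) : ℝ) ≤ (n : ℝ) ^ 2 := by exact_mod_cast hsub
  linarith

lemma hasDerivAt_freeE (β : ℝ) :
    HasDerivAt (fun b => freeE n b)
      (β / n * ∑ p : Pair n, ∫ g, (1 - MM (β / Real.sqrt n) g p ^ 2) ∂(stdG (Pair n))) β := by
  classical
  have hder := hasDerivAt_integral_stdG (ι := Pair n)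
    (fun b g => Real.log (ZZ (b / Real.sqrt n) g))
    (fun b g => (∑ p, g p * MM (b / Real.sqrt n) g p) * (1 / Real.sqrt n))
    (fun b => continuous_log _)
    (fun b => (continuous_finsetSum _ fun p _ =>
      (continuous_apply p).mul (continuous_MM _ p)).mul continuous_const)
    (fun b g => by
      have h1 := hasDerivAt_logZ (b / Real.sqrt n) g
      have h2 : HasDerivAt (fun b : ℝ => b / Real.sqrt n) (1 / Real.sqrt n) b :=
        (hasDerivAt_id b).div_const _
      exact h1.comp b h2)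
    (fun b => EG_logZ _)
    (fun _ => ⟨1 / Real.sqrt n + 1, fun b _ g => by
      have hT : 0 ≤ ∑ p, |g p| := Finset.sum_nonneg fun _ _ => abs_nonneg _
      have hs : 0 ≤ 1 / Real.sqrt n := by positivity
      have h1 : |∑ p, g p * MM (b / Real.sqrt n) g p| ≤ ∑ p, |g p| := by
        refine (Finset.abs_sum_le_sum_abs _ _).trans (Finset.sum_le_sum fun p _ => ?_)
        rw [abs_mul]
        calc |g p| * |MM (b / Real.sqrt n) g p| ≤ |g p| * 1 :=
              mul_le_mul_of_nonneg_left (abs_MM_le _ g p) (abs_nonneg _)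
          _ = |g p| := mul_one _
      have h2 : ∑ p, |g p| ≤ Real.exp (∑ p, |g p|) := by
        linarith [Real.add_one_le_exp (∑ p, |g p|)]
      have h3 : Real.exp (∑ p, |g p|) ≤ Real.exp ((1 / Real.sqrt n + 1) * ∑ p, |g p|) := by
        apply Real.exp_le_exp.2
        have : 0 ≤ 1 / Real.sqrt n * ∑ p, |g p| := mul_nonneg hs hT
        linarith
      rw [abs_mul, abs_of_nonneg hs]
      calc |∑ p, g p * MM (b / Real.sqrt n) g p| * (1 / Real.sqrt n)
          ≤ Real.exp ((1 / Real.sqrt n + 1) * ∑ p, |g p|) * (1 / Real.sqrt n) :=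
            mul_le_mul_of_nonneg_right (h1.trans (h2.trans h3)) hs
        _ ≤ Real.exp ((1 / Real.sqrt n + 1) * ∑ p, |g p|) * (1 / Real.sqrt n + 1) :=
            mul_le_mul_of_nonneg_left (by linarith) (Real.exp_pos _).le
        _ = (1 / Real.sqrt n + 1) * Real.exp ((1 / Real.sqrt n + 1) * ∑ p, |g p|) :=
            mul_comm _ _⟩) β
  have hfun : (fun b => freeE n b) = fun b => ∫ g, Real.log (ZZ (b / Real.sqrt n) g)
      ∂(stdG (Pair n)) := by
    funext b; exact freeE_eq b
  rw [hfun]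
  refine hder.congr_deriv ?_
  have hi : ∀ p : Pair n, Integrable (fun g : Pair n → ℝ => g p * MM (β / Real.sqrt n) g p)
      (stdG (Pair n)) := fun p =>
    ((EG.coord p).mul (EG_MM _ p)).integrable ((continuous_apply p).mul (continuous_MM _ p))
  rw [integral_mul_const, integral_finsetSum _ fun p _ => hi p]
  have hibp : ∀ p : Pair n, ∫ g, g p * MM (β / Real.sqrt n) g p ∂(stdG (Pair n))
      = β / Real.sqrt n * ∫ g, (1 - MM (β / Real.sqrt n) g p ^ 2) ∂(stdG (Pair n)) := by
    intro p
    rw [← integral_const_mul]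
    exact gauss_ibp p (fun g => MM (β / Real.sqrt n) g p)
      (fun g => β / Real.sqrt n * (1 - MM (β / Real.sqrt n) g p ^ 2)) (continuous_MM _ p)
      (continuous_const.mul (continuous_const.sub ((continuous_MM _ p).pow 2)))
      (fun g => hasDerivAt_MM _ g p) (EG_MM _ p) (EG_dMM _ p)
  simp only [hibp]
  rw [← Finset.mul_sum]
  have hsq : Real.sqrt n * Real.sqrt n = n := Real.mul_self_sqrt (Nat.cast_nonneg n)
  calc (β / Real.sqrt n * ∑ p : Pair n, ∫ g, (1 - MM (β / Real.sqrt n) g p ^ 2)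
        ∂(stdG (Pair n))) * (1 / Real.sqrt n)
      = β / (Real.sqrt n * Real.sqrt n) * ∑ p : Pair n,
          ∫ g, (1 - MM (β / Real.sqrt n) g p ^ 2) ∂(stdG (Pair n)) := by
        rw [← div_div]; ring
    _ = _ := by rw [hsq]

end

end Temp

open Temp in
theorem freeE_sub_le (n : ℕ) (b1 b2 : ℝ) (h0 : 0 ≤ b1) (h12 : b1 ≤ b2) :
    freeE n b2 - freeE n b1 ≤ n * (b2 ^ 2 - b1 ^ 2) / 4 := by
  have hder : ∀ β : ℝ, HasDerivAt (fun b => freeE n b - n * b ^ 2 / 4)
      (β / n * ∑ p : Pair n, ∫ g, (1 - MM (β / Real.sqrt n) g p ^ 2) ∂(stdG (Pair n))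
        - n * β / 2) β := by
    intro β
    refine ((hasDerivAt_freeE β).sub (((hasDerivAt_pow 2 β).const_mul (n : ℝ)).div_const 4)).congr_deriv ?_
    norm_num
    ring
  have hanti : AntitoneOn (fun b => freeE n b - n * b ^ 2 / 4) (Set.Icc b1 b2) := by
    refine antitoneOn_of_deriv_nonpos (convex_Icc b1 b2)
      (fun t _ => (hder t).continuousAt.continuousWithinAt)
      (fun t _ => (hder t).differentiableAt.differentiableWithinAt) ?_
    intro t ht
    have ht' := interior_subset ht
    have ht0 : 0 ≤ t := h0.trans ht'.1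
    rw [(hder t).deriv]
    have hsum : ∑ p : Pair n, ∫ g, (1 - MM (t / Real.sqrt n) g p ^ 2) ∂(stdG (Pair n))
        ≤ (n : ℝ) ^ 2 / 2 := by
      calc ∑ p : Pair n, ∫ g, (1 - MM (t / Real.sqrt n) g p ^ 2) ∂(stdG (Pair n))
          ≤ ∑ _p : Pair n, (1 : ℝ) := by
            refine Finset.sum_le_sum fun p _ => ?_
            have h := integral_mono_of_nonneg (μ := stdG (Pair n))
              (f := fun g => 1 - MM (t / Real.sqrt n) g p ^ 2) (g := fun _ => (1 : ℝ))
              (Filter.Eventually.of_forall fun g => sub_nonneg.2 (MM_sq_le _ g p))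
              (integrable_const _)
              (Filter.Eventually.of_forall fun g => sub_le_self _ (sq_nonneg _))
            simpa using h
        _ = (Fintype.card (Pair n) : ℝ) := by simp
        _ ≤ (n : ℝ) ^ 2 / 2 := card_pair_le
    rcases Nat.eq_zero_or_pos n with hn | hn
    · subst hn
      simp
    · have hn' : (0 : ℝ) < n := by exact_mod_cast hn
      have h1 : t / n * ∑ p : Pair n, ∫ g, (1 - MM (t / Real.sqrt n) g p ^ 2) ∂(stdG (Pair n))
          ≤ t / n * ((n : ℝ) ^ 2 / 2) := mul_le_mul_of_nonneg_left hsum (by positivity)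
      have h2 : t / n * ((n : ℝ) ^ 2 / 2) = n * t / 2 := by
        field_simp
      linarith
  have h := hanti (Set.left_mem_Icc.2 h12) (Set.right_mem_Icc.2 h12) h12
  simp only at h
  linarith

end Vale.Agent.P150.Slow
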