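import Vale.Agent.P150.Slow.GapOvl
import Vale.Agent.P150.Slow.MixGap
import Vale.Agent.P150.Slow.Temp
import Vale.Agent.P150.Slow.Guerra
import Vale.Agent.P150.Slow.RSnum
import Vale.Agent.P150.Slow.Cavity
import Vale.Agent.P150.Slow.Compare

/-!
P150 / Slow: assembly. For `β > 1` fast mixing fails.
-/

namespace Vale.Agent.P150.Slow

open MeasureTheory ProbabilityTheory Filter
open scoped Topology

namespace Main

instance instProbDisorder (n : ℕ) : IsProbabilityMeasure (disorder n) := by
  unfold disorder; infer_instance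

lemma continuous_skH (n : ℕ) (β : ℝ) (x : Cfg n) : Continuous fun g => skH n β g x := by
  unfold skH
  fun_prop

lemma continuous_avg (n : ℕ) (β : ℝ) (f : Cfg n → ℝ) :
    Continuous fun g => avg (skH n β g) f := by
  unfold avg gibbs
  refine continuous_finsetSum _ fun x _ => ?_
  refine Continuous.mul ?_ continuous_const
  refine Continuous.div (Real.continuous_exp.comp (continuous_skH n β x))
    (continuous_finsetSum _ fun y _ => Real.continuous_exp.comp (continuous_skH n β y)) ?_
  intro g
  exact (Z_pos _).ne'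

lemma continuous_ovl (n : ℕ) (β : ℝ) : Continuous fun g => ovl (skH n β g) := by
  unfold ovl
  refine continuous_const.mul (continuous_finsetSum _ fun i _ =>
    continuous_finsetSum _ fun j _ => ?_)
  exact (continuous_avg n β _).pow 2

lemma integrable_ovl (n : ℕ) (β : ℝ) : Integrable (fun g => ovl (skH n β g)) (disorder n) := by
  refine Integrable.of_bound (continuous_ovl n β).aestronglyMeasurable 1
    (Eventually.of_forall fun g => ?_)
  rw [Real.norm_eq_abs, abs_of_nonneg (ovl_nonneg _)]
  exact ovl_le_one _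

/-- `E ovl ≤ 1/K + P*(bad)` when `ovl ≤ 1/K` off the bad set. -/
lemma integral_ovl_le (n : ℕ) (β a : ℝ) (ha : 0 ≤ a) (s : Set (Pair n → ℝ))
    (h : ∀ g, g ∉ s → ovl (skH n β g) ≤ a) :
    ∫ g, ovl (skH n β g) ∂(disorder n) ≤ a + (disorder n s).toReal := by
  set t : Set (Pair n → ℝ) := {g | a < ovl (skH n β g)} with ht
  have hmeas : MeasurableSet t :=
    (isOpen_lt continuous_const (continuous_ovl n β)).measurableSet
  have hts : t ⊆ s := fun g hg => by
    by_contra hgs
    exact absurd (h g hgs) (not_le.mpr hg)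
  have hle : (disorder n t).toReal ≤ (disorder n s).toReal :=
    ENNReal.toReal_mono (measure_ne_top _ _) (measure_mono hts)
  have hint : Integrable (fun g => a + t.indicator (fun _ => (1 : ℝ)) g) (disorder n) :=
    (integrable_const a).add ((integrable_const (1 : ℝ)).indicator hmeas)
  have h1 : ∫ g, ovl (skH n β g) ∂(disorder n)
      ≤ ∫ g, (a + t.indicator (fun _ => (1 : ℝ)) g) ∂(disorder n) := by
    refine integral_mono (integrable_ovl n β) hint fun g => ?_
    by_cases hg : g ∈ t
    · simp only [Set.indicator_of_mem hg]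
      linarith [ovl_le_one (skH n β g)]
    · simp only [Set.indicator_of_notMem hg, add_zero]
      exact not_lt.mp hg
  have h2 : ∫ g, (a + t.indicator (fun _ => (1 : ℝ)) g) ∂(disorder n)
      = a + (disorder n t).toReal := by
    rw [integral_add (integrable_const a) ((integrable_const (1 : ℝ)).indicator hmeas)]
    simp [integral_indicator hmeas, Measure.real]
  linarith

/-- `E ovl(b') ≤ e^{4β} E ovl(β) + P(bad)`. -/
lemma integral_ovl_compare (n : ℕ) (b1 b2 c : ℝ) (hc : 0 ≤ c) :
    ∫ g, ovl (skH n b1 g) ∂(disorder n) ≤ c * ∫ g, ovl (skH n b2 g) ∂(disorder n)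
      + (disorder n {g | ¬ ovl (skH n b1 g) ≤ c * ovl (skH n b2 g)}).toReal := by
  set t : Set (Pair n → ℝ) := {g | ¬ ovl (skH n b1 g) ≤ c * ovl (skH n b2 g)} with ht
  have hmeas : MeasurableSet t := by
    have : t = {g | c * ovl (skH n b2 g) < ovl (skH n b1 g)} := by
      ext g; simp [ht]
    rw [this]
    exact (isOpen_lt (continuous_const.mul (continuous_ovl n b2))
      (continuous_ovl n b1)).measurableSet
  have i2 := (integrable_ovl n b2).const_mul c
  have i3 : Integrable (fun g => t.indicator (fun _ => (1 : ℝ)) g) (disorder n) :=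
    (integrable_const (1 : ℝ)).indicator hmeas
  have h1 : ∫ g, ovl (skH n b1 g) ∂(disorder n)
      ≤ ∫ g, (c * ovl (skH n b2 g) + t.indicator (fun _ => (1 : ℝ)) g) ∂(disorder n) := by
    refine integral_mono (integrable_ovl n b1) (i2.add i3) fun g => ?_
    by_cases hg : g ∈ t
    · simp only [Set.indicator_of_mem hg]
      have := mul_nonneg hc (ovl_nonneg (skH n b2 g))
      linarith [ovl_le_one (skH n b1 g)]
    · simp only [Set.indicator_of_notMem hg, add_zero]
      exact not_not.mp hg
  rw [integral_add i2 i3, integral_const_mul] at h1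
  simpa [integral_indicator hmeas, Measure.real] using h1

lemma skH_even (n : ℕ) (β : ℝ) (g : Pair n → ℝ) (x : Cfg n) :
    skH n β g (fun i => - x i) = skH n β g x := by
  unfold skH
  congr 1
  refine Finset.sum_congr rfl fun p _ => ?_
  simp only [val_neg]; ring

end Main

open Main

/-- The mean squared overlap does not tend to zero in mean. -/
theorem ovl_not_tendsto (β : ℝ) (hβ : 1 < β) :
    ¬ Tendsto (fun n : ℕ => ∫ g, ovl (skH n β g) ∂(disorder n)) atTop (𝓝 0) := by
  intro hT
  have hβ0 : 0 < β := by linarith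
  obtain ⟨q, hq0, hq1, hRS⟩ := rs_lt β hβ
  set RS := Real.log 2 + β ^ 2 * (1 - q) ^ 2 / 4 +
      ∫ z, Real.log (Real.cosh (β * Real.sqrt q * z)) ∂(gaussianReal 0 1) with hRSdef
  set η := Real.log 2 + β ^ 2 / 4 - RS with hη
  have hη0 : 0 < η := by rw [hη]; linarith
  -- choose δ
  obtain ⟨δ, hδ0, hδ1, hδ2⟩ : ∃ δ : ℝ, 0 < δ ∧ δ < 1 ∧ - Real.log (1 - δ) ≤ min (η / 4) (1 / 4) := by
    have hm : 0 < min (η / 4) (1 / 4) := by positivity
    refine ⟨1 - Real.exp (- min (η / 4) (1 / 4)), ?_, ?_, ?_⟩
    · have : Real.exp (- min (η / 4) (1 / 4)) < 1 := by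
        rw [Real.exp_lt_one_iff]; linarith
      linarith
    · have := Real.exp_pos (- min (η / 4) (1 / 4)); linarith
    · rw [sub_sub_cancel, Real.log_exp, neg_neg]
  have hδη : - Real.log (1 - δ) ≤ η / 4 := hδ2.trans (min_le_left _ _)
  have hδq : - Real.log (1 - δ) ≤ 1 / 4 := hδ2.trans (min_le_right _ _)
  -- overlaps at b'
  set r : ℕ → ℝ := fun n => ∫ g, ovl (skH n (β * Real.sqrt (n / (n + 1))) g) ∂(disorder n)
    with hr
  have hr0 : ∀ n, 0 ≤ r n := fun n => integral_nonneg fun g => ovl_nonneg _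
  have hcmp := ovl_compare β hβ0
  have hrT : Tendsto r atTop (𝓝 0) := by
    have hb : Tendsto (fun n : ℕ => (disorder n {g | ¬ ovl (skH n (β * Real.sqrt (n / (n + 1))) g)
      ≤ Real.exp (4 * β) * ovl (skH n β g)}).toReal) atTop (𝓝 0) := by
      have := (ENNReal.tendsto_toReal (ENNReal.zero_ne_top)).comp hcmp
      rw [ENNReal.toReal_zero] at this
      exact this
    have hlim : Tendsto (fun n : ℕ => Real.exp (4 * β) * ∫ g, ovl (skH n β g) ∂(disorder n)
        + (disorder n {g | ¬ ovl (skH n (β * Real.sqrt (n / (n + 1))) g)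
      ≤ Real.exp (4 * β) * ovl (skH n β g)}).toReal) atTop (𝓝 0) := by
      have := (hT.const_mul (Real.exp (4 * β))).add hb
      simpa using this
    exact squeeze_zero hr0
      (fun n => integral_ovl_compare n _ β (Real.exp (4 * β)) (Real.exp_pos _).le) hlim
  -- increments
  set c := β ^ 4 * Real.cosh (β ^ 2) / δ ^ 2 with hc
  have hlow : Tendsto (fun n : ℕ => Real.log 2 + (1 - c * r n) *
        (β ^ 2 * n / (2 * (n + 1)) + Real.log (1 - δ))) atTop
        (𝓝 (Real.log 2 + (1 - c * 0) * (β ^ 2 / 2 + Real.log (1 - δ)))) := by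
    have hn : Tendsto (fun n : ℕ => β ^ 2 * (n : ℝ) / (2 * ((n : ℝ) + 1))) atTop
        (𝓝 (β ^ 2 / 2)) := by
      have h1 : Tendsto (fun n : ℕ => (n : ℝ) / ((n : ℝ) + 1)) atTop (𝓝 1) :=
        tendsto_natCast_div_add_atTop 1
      have h2 := h1.const_mul (β ^ 2 / 2)
      rw [mul_one] at h2
      refine h2.congr fun n => ?_
      have : (n : ℝ) + 1 ≠ 0 := by positivity
      field_simp
    exact tendsto_const_nhds.add ((tendsto_const_nhds.sub (hrT.const_mul c)).mul
      (hn.add tendsto_const_nhds))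
  have hval : Real.log 2 + β ^ 2 / 4 - η / 2 + β ^ 2 / 4 <
      Real.log 2 + (1 - c * 0) * (β ^ 2 / 2 + Real.log (1 - δ)) := by
    rw [mul_zero, sub_zero, one_mul]; linarith
  have hpos_ev : ∀ᶠ n : ℕ in atTop, 0 ≤ β ^ 2 * (n : ℝ) / (2 * ((n : ℝ) + 1))
      + Real.log (1 - δ) := by
    filter_upwards [eventually_ge_atTop 1] with n hn
    have hn1 : (1 : ℝ) ≤ n := by exact_mod_cast hn
    have h1 : 1 / 4 ≤ β ^ 2 * (n : ℝ) / (2 * ((n : ℝ) + 1)) := by
      rw [le_div_iff₀ (by positivity)]
      have hβ2 : 1 ≤ β ^ 2 := by nlinarith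
      have := mul_le_mul_of_nonneg_right hβ2 (by linarith : (0 : ℝ) ≤ n)
      linarith
    linarith
  have hstep : ∀ᶠ n : ℕ in atTop,
      Real.log 2 + β ^ 2 / 4 - η / 2 ≤ freeE (n + 1) β - freeE n β := by
    filter_upwards [hlow.eventually (lt_mem_nhds hval), hpos_ev, eventually_ne_atTop 0]
      with n h1 h2 h3
    have hcav := cavity n h3 β δ hβ0 hδ0 hδ1 h2
    have hnpos : (0 : ℝ) < (n : ℝ) + 1 := by positivity
    have hs1 : Real.sqrt ((n : ℝ) / (n + 1)) ≤ 1 := by
      rw [Real.sqrt_le_one]
      rw [div_le_one hnpos]; linarith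
    have hb1 : β * Real.sqrt ((n : ℝ) / (n + 1)) ≤ β := by
      nlinarith [Real.sqrt_nonneg ((n : ℝ) / (n + 1))]
    have hT2 := freeE_sub_le n (β * Real.sqrt (n / (n + 1))) β (by positivity) hb1
    have hsq : (β * Real.sqrt ((n : ℝ) / (n + 1))) ^ 2 = β ^ 2 * (n / (n + 1)) := by
      rw [mul_pow, Real.sq_sqrt (by positivity)]
    rw [hsq] at hT2
    have hT3 : (n : ℝ) * (β ^ 2 - β ^ 2 * (n / (n + 1))) / 4 ≤ β ^ 2 / 4 := by
      have e : (n : ℝ) * (β ^ 2 - β ^ 2 * (n / (n + 1))) = β ^ 2 * (n / (n + 1)) := by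
        field_simp
        ring
      rw [e]
      have : (n : ℝ) / (n + 1) ≤ 1 := by rw [div_le_one hnpos]; linarith
      nlinarith [sq_nonneg β]
    linarith
  obtain ⟨N, hN⟩ := eventually_atTop.mp hstep
  set L := Real.log 2 + β ^ 2 / 4 - η / 2 with hL
  have htel : ∀ k : ℕ, freeE N β + k * L ≤ freeE (N + k) β := by
    intro k
    induction k with
    | zero => simp
    | succ k ih =>
      have := hN (N + k) (Nat.le_add_right _ _)
      rw [← add_assoc]
      push_cast
      linarith
  -- contradiction with Guerra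
  have hup : ∀ k : ℕ, k ≠ 0 → freeE (N + k) β ≤ (N + k : ℕ) * RS := fun k hk =>
    guerra (N + k) (by omega) β q hβ0.le hq0 hq1
  have hLR : L = RS + η / 2 := by rw [hL, hη]; ring
  obtain ⟨k, hk⟩ := exists_nat_gt ((N * RS - freeE N β) / (η / 2))
  have hk2 : N * RS - freeE N β < k * (η / 2) := by
    rw [div_lt_iff₀ (by positivity)] at hk; linarith
  have a1 := htel (k + 1)
  have a2 := hup (k + 1) (by omega)
  push_cast at a1 a2
  rw [hLR] at a1
  nlinarith

/-- For some `K`, `P(gap < K/n)` does not tend to zero. -/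
theorem gap_small (β : ℝ) (hβ : 1 < β) :
    ∃ K : ℝ, 0 < K ∧ ¬ Tendsto (fun n : ℕ => disorder n {g | specGap (skH n β g) < K / n})
      atTop (𝓝 0) := by
  by_contra hcon
  push Not at hcon
  apply ovl_not_tendsto β hβ
  rw [Metric.tendsto_atTop]
  intro ε hε
  have hK : 0 < 2 / ε := by positivity
  have hT := hcon (2 / ε) hK
  have hT2 : Tendsto (fun n : ℕ => (disorder n {g | specGap (skH n β g) < 2 / ε / n}).toReal)
      atTop (𝓝 0) := by
    have := (ENNReal.tendsto_toReal (ENNReal.zero_ne_top)).comp hT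
    rw [ENNReal.toReal_zero] at this
    exact this
  have hev := hT2.eventually (gt_mem_nhds (half_pos hε))
  obtain ⟨N, hN⟩ := eventually_atTop.mp hev
  refine ⟨max N 1, fun n hn => ?_⟩
  have hn1 : 1 ≤ n := (le_max_right _ _).trans hn
  have hnN : N ≤ n := (le_max_left _ _).trans hn
  have hnpos : (0 : ℝ) < n := by exact_mod_cast hn1
  have h1 := integral_ovl_le n β (ε / 2) (by positivity)
    {g | specGap (skH n β g) < 2 / ε / n} (fun g hg => by
      have hge : 2 / ε / n ≤ specGap (skH n β g) := not_lt.mp hg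
      have := ovl_le_of_gap (skH n β g) (by omega) (skH_even n β g) (2 / ε / n)
        (by positivity) hge
      refine this.trans (le_of_eq ?_)
      field_simp)
  have h2 := hN n hnN
  rw [Real.dist_eq, sub_zero, abs_of_nonneg (integral_nonneg fun g => ovl_nonneg _)]
  linarith

/-- For some `c > 0`, `P(t_mix ≥ c n)` does not tend to zero. -/
theorem mix_slow (β : ℝ) (hβ : 1 < β) :
    ∃ c : ℝ, 0 < c ∧ ¬ Tendsto (fun n : ℕ => disorder n {g | ((c * n : ℝ) : EReal)
      < tMix (skH n β g)}) atTop (𝓝 0) := by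
  obtain ⟨K, hK, hnot⟩ := gap_small β hβ
  have hlog2 : 0 < Real.log 2 := Real.log_pos (by norm_num)
  refine ⟨Real.log 2 / (2 * K), by positivity, fun hT => hnot ?_⟩
  refine tendsto_of_tendsto_of_tendsto_of_le_of_le' tendsto_const_nhds hT
    (Eventually.of_forall fun _ => zero_le) ?_
  filter_upwards [eventually_ne_atTop 0] with n hn
  refine measure_mono fun g hg => ?_
  rw [Set.mem_ofPred_eq] at hg ⊢
  by_contra hcon
  rw [not_lt] at hcon
  have hnpos : (0 : ℝ) < n := by exact_mod_cast Nat.pos_of_ne_zero hn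
  have hlt : tMix (skH n β g) < ((Real.log 2 / K * n : ℝ) : EReal) := by
    refine lt_of_le_of_lt hcon ?_
    rw [EReal.coe_lt_coe_iff]
    have : Real.log 2 / (2 * K) < Real.log 2 / K := by
      apply div_lt_div_of_pos_left hlog2 hK; linarith
    exact mul_lt_mul_of_pos_right this hnpos
  obtain ⟨t, ⟨s, hs0, rfl, hs⟩, hst⟩ := sInf_lt_iff.mp hlt
  rw [EReal.coe_lt_coe_iff] at hst
  have hspos : 0 < s := by
    rcases hs0.eq_or_lt with h0 | h0
    · exfalso
      subst h0
      -- at time zero the distance is `1 - gibbs x`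
      have hk : ∀ x y : Cfg n, kernel (skH n β g) 0 x y = if y = x then 1 else 0 := by
        intro x y
        unfold kernel semi
        rw [zero_smul, NormedSpace.exp_zero]
        simp [Pi.single_apply, eq_comm]
      have htv : ∀ x : Cfg n, 1 - gibbs (skH n β g) x ≤ 1 / 4 := by
        intro x
        refine le_trans ?_ (hs x)
        unfold tvDist
        simp only [hk]
        have e1 : ∑ y, |(if y = x then (1 : ℝ) else 0) - gibbs (skH n β g) y|
            = (1 - gibbs (skH n β g) x) + ∑ y ∈ Finset.univ.erase x, gibbs (skH n β g) y := by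
          rw [← Finset.add_sum_erase _ _ (Finset.mem_univ x)]
          congr 1
          · rw [if_pos rfl, abs_of_nonneg]
            have := sum_gibbs (skH n β g)
            have h2 : gibbs (skH n β g) x ≤ ∑ y, gibbs (skH n β g) y :=
              Finset.single_le_sum (fun y _ => gibbs_nonneg _ y) (Finset.mem_univ x)
            linarith
          · refine Finset.sum_congr rfl fun y hy => ?_
            rw [if_neg (Finset.ne_of_mem_erase hy), zero_sub, abs_neg,
              abs_of_nonneg (gibbs_nonneg _ _)]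
        have e2 : ∑ y ∈ Finset.univ.erase x, gibbs (skH n β g) y
            = 1 - gibbs (skH n β g) x := by
          have := sum_gibbs (skH n β g)
          rw [← Finset.add_sum_erase _ _ (Finset.mem_univ x)] at this
          linarith
        rw [e1, e2]; linarith
      have hx := htv (fun _ => 1)
      have hy := htv (fun _ => -1)
      have hne : (fun _ => 1 : Cfg n) ≠ fun _ => -1 := by
        intro h
        have := congrFun h ⟨0, Nat.pos_of_ne_zero hn⟩
        exact absurd this (by decide)
      have hsum : gibbs (skH n β g) (fun _ => 1) + gibbs (skH n β g) (fun _ => -1) ≤ 1 := by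
        rw [← sum_gibbs (skH n β g), ← Finset.sum_pair hne]
        exact Finset.sum_le_sum_of_subset_of_nonneg (Finset.subset_univ _)
          fun y _ _ => gibbs_nonneg _ y
      linarith
    · exact h0
  have hgap := gap_ge_of_mixed (skH n β g) hn s hspos hs
  have : K / n < Real.log 2 / s := by
    rw [div_lt_div_iff₀ hnpos hspos]
    have e : Real.log 2 / K * n * K = Real.log 2 * n := by field_simp
    nlinarith
  linarith

end Vale.Agent.P150.Slow
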